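import Vale.Agent.P267.H399.Defs

/-!
# P267 / XT-AN: the infinite cyclic covering, norms, slab profiles, weights (helper877)

`M` = infinite cyclic covering of a compact complex surface, `γ` = generator of the deck group,
`f : M → ℝ`, `f ∘ γ = f + 1`, `h` = invariant Hermitian metric with `tr_h ∂∂̄f = c > 0`.
A closed cyclic covering `X_m` is never used as a manifold: objects on `X_m` are the objects `u` on
`M` with `u ∘ γ^m = μ • u`.
-/

set_option linter.unusedVariables false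
set_option linter.unusedSectionVars false

open scoped Manifold ContDiff ComplexConjugate Matrix ComplexOrder Topology
open MeasureTheory Set Filter

noncomputable section

namespace Vale.Agent.P267.XT

open FL

/-- the infinite cyclic covering `M` of a compact complex surface -/
structure XTData (M : Type) [TopologicalSpace M] [ChartedSpace C2 M] where
  /-- generator of the deck group, `γ` moves outward -/
  γ : M ≃ₜ M
  /-- the preferred coordinates at `γ x` are those at `x` transported by `γ` (as germs) -/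
  chart_γ : ∀ x, (fun y => chartAt C2 (γ x) (γ y)) =ᶠ[𝓝 x] fun y => chartAt C2 x y
  /-- the height function -/
  f : M → ℝ
  f_smooth : Reg0 ∞ 0 (fun x => (f x : ℂ))
  f_γ : ∀ x, f (γ x) = f x + 1
  f_proper : ∀ a b, IsCompact (f ⁻¹' Icc a b)
  /-- Hermitian metric, in preferred coordinates -/
  h : M → Matrix (Fin 2) (Fin 2) ℂ
  herm : IsHerm h
  h_γ : ∀ x, h (γ x) = h x
  c : ℝ
  c_pos : 0 < c
  lap_f : ∀ x, trh h (ddb fun y => (f y : ℂ)) x = (c : ℂ)

section norms

variable {M : Type} [TopologicalSpace M] [ChartedSpace C2 M]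
variable {V : Type*} [NormedAddCommGroup V] [InnerProductSpace ℂ V]

/-- `det h` as a real number -/
def dh (h : M → Matrix (Fin 2) (Fin 2) ℂ) (x : M) : ℝ := (h x).det.re

/-- pointwise norm of a `K^κ ⊗ V`-valued function -/
def n0 (h : M → Matrix (Fin 2) (Fin 2) ℂ) (κ : ℤ) (s : M → V) (x : M) : ℝ :=
  ‖s x‖ * dh h x ^ (-(κ : ℝ) / 2)

/-- pointwise norm of a `K^κ ⊗ V`-valued `(0,1)`-form -/
def n1 (h : M → Matrix (Fin 2) (Fin 2) ℂ) (κ : ℤ) (a : M → Fin 2 → V) (x : M) : ℝ :=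
  Real.sqrt (nsq1 h a x) * dh h x ^ (-(κ : ℝ) / 2)

/-- pointwise norm of a `K^κ ⊗ V`-valued `(0,2)`-form -/
def n2 (h : M → Matrix (Fin 2) (Fin 2) ℂ) (κ : ℤ) (b : M → V) (x : M) : ℝ :=
  ‖b x‖ * dh h x ^ (-((κ : ℝ) + 1) / 2)

end norms

namespace XTData

variable {M : Type} [TopologicalSpace M] [ChartedSpace C2 M] (D : XTData M)

/-- the slab `j ≤ f ≤ j + 1` -/
def slab (j : ℤ) : Set M := {x | (j : ℝ) ≤ D.f x ∧ D.f x ≤ j + 1}

/-- slab profile of a (nonnegative, locally bounded) function: `j ↦ sup_{slab j} n` -/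
def prof (n : M → ℝ) (j : ℤ) : ℝ := sSup (n '' D.slab j)

/-- integer translates of points: `sh k = γ^k` -/
def sh (k : ℤ) : M → M := ⇑(D.γ ^ k)

@[simp] theorem sh_zero (x : M) : D.sh 0 x = x := rfl

theorem sh_add (k l : ℤ) (x : M) : D.sh (k + l) x = D.sh k (D.sh l x) := by
  rw [sh, zpow_add, Homeomorph.mul_apply]; rfl

@[simp] theorem sh_one (x : M) : D.sh 1 x = D.γ x := by rw [sh, zpow_one]

theorem γ_sh (k : ℤ) (x : M) : D.γ (D.sh k x) = D.sh (k + 1) x := by
  rw [add_comm, D.sh_add, D.sh_one]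

theorem sh_γ (k : ℤ) (x : M) : D.sh k (D.γ x) = D.sh (k + 1) x := by
  rw [D.sh_add, D.sh_one]

@[simp] theorem sh_neg_sh (k : ℤ) (x : M) : D.sh (-k) (D.sh k x) = x := by
  rw [← D.sh_add]; simp

@[simp] theorem sh_sh_neg (k : ℤ) (x : M) : D.sh k (D.sh (-k) x) = x := by
  rw [← D.sh_add]; simp

/-- `u` is an object on `X_m` with multiplier `μ` -/
def Equiv {V : Type*} [SMul ℂ V] (m : ℤ) (μ : ℂ) (u : M → V) : Prop :=
  ∀ x, u (D.sh m x) = μ • u x

theorem continuous_sh (k : ℤ) : Continuous (D.sh k) := (D.γ ^ k).continuous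

/-- induction along integers for statements about translates -/
theorem sh_induction {P : ℤ → Prop} (h0 : P 0) (h1 : ∀ k, P k → P (k + 1))
    (h2 : ∀ k, P k → P (k - 1)) (k : ℤ) : P k := by
  induction k with
  | zero => exact h0
  | succ n ih => exact h1 _ ih
  | pred n ih => exact h2 _ ih

theorem f_sh (k : ℤ) (x : M) : D.f (D.sh k x) = D.f x + k := by
  revert k
  apply sh_induction
  · simp
  · intro k hk
    rw [← D.γ_sh, D.f_γ, hk]; push_cast; ring
  · intro k hk
    have := D.f_γ (D.sh (k - 1) x)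
    rw [D.γ_sh, sub_add_cancel, hk] at this
    push_cast; linarith

theorem h_sh (k : ℤ) (x : M) : D.h (D.sh k x) = D.h x := by
  revert k
  apply sh_induction
  · simp
  · intro k hk
    rw [← D.γ_sh, D.h_γ, hk]
  · intro k hk
    have := D.h_γ (D.sh (k - 1) x)
    rw [D.γ_sh, sub_add_cancel, hk] at this
    exact this.symm

theorem chart_sh (k : ℤ) (x : M) :
    (fun y => chartAt C2 (D.sh k x) (D.sh k y)) =ᶠ[𝓝 x] fun y => chartAt C2 x y := by
  revert k
  apply sh_induction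
  · exact Eventually.of_forall fun y => rfl
  · intro k hk
    have h1 := (D.continuous_sh k).continuousAt (x := x) |>.eventually (D.chart_γ (D.sh k x))
    filter_upwards [hk, h1] with y hy hy1
    rw [← D.γ_sh, ← D.γ_sh]
    rw [hy1, hy]
  · intro k hk
    have h1 := (D.continuous_sh (k - 1)).continuousAt (x := x) |>.eventually
      (D.chart_γ (D.sh (k - 1) x))
    filter_upwards [hk, h1] with y hy hy1
    rw [D.γ_sh, D.γ_sh, sub_add_cancel] at hy1
    rw [← hy1, hy]

theorem isCompact_slab (j : ℤ) : IsCompact (D.slab j) := by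
  have := D.f_proper j (j + 1)
  convert this using 1
  ext x
  simp [slab]

theorem mem_slab_floor (x : M) : x ∈ D.slab ⌊D.f x⌋ :=
  ⟨Int.floor_le _, (Int.lt_floor_add_one _).le⟩

theorem γ_mem_slab {j : ℤ} {x : M} : D.γ x ∈ D.slab (j + 1) ↔ x ∈ D.slab j := by
  simp only [slab, mem_ofPred_eq, D.f_γ]
  push_cast
  constructor <;> rintro ⟨h1, h2⟩ <;> constructor <;> linarith

theorem sh_mem_slab {j k : ℤ} {x : M} : D.sh k x ∈ D.slab (j + k) ↔ x ∈ D.slab j := by
  simp only [slab, mem_ofPred_eq, D.f_sh]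
  push_cast
  constructor <;> rintro ⟨h1, h2⟩ <;> constructor <;> linarith

theorem image_slab (j : ℤ) : D.γ '' D.slab j = D.slab (j + 1) := by
  ext x
  constructor
  · rintro ⟨y, hy, rfl⟩
    exact D.γ_mem_slab.2 hy
  · intro hx
    refine ⟨D.γ.symm x, ?_, by simp⟩
    rw [← D.γ_mem_slab]
    simpa using hx

theorem le_prof {n : M → ℝ} (hn : Continuous n) {j : ℤ} {x : M} (hx : x ∈ D.slab j) :
    n x ≤ D.prof n j :=
  le_csSup ((D.isCompact_slab j).image hn).bddAbove ⟨x, hx, rfl⟩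

theorem prof_le {n : M → ℝ} {j : ℤ} {B : ℝ} (hB : 0 ≤ B) (h : ∀ x ∈ D.slab j, n x ≤ B) :
    D.prof n j ≤ B := by
  rcases (D.slab j).eq_empty_or_nonempty with he | hne
  · simp [prof, he, hB]
  · refine csSup_le (hne.image n) ?_
    rintro _ ⟨x, hx, rfl⟩
    exact h x hx

theorem prof_nonneg {n : M → ℝ} (hn : ∀ x, 0 ≤ n x) (j : ℤ) : 0 ≤ D.prof n j := by
  apply Real.sSup_nonneg
  rintro _ ⟨x, _, rfl⟩
  exact hn x

/-- the profile is attained -/
theorem exists_prof_eq {n : M → ℝ} (hn : Continuous n) {j : ℤ} (hne : (D.slab j).Nonempty) :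
    ∃ x ∈ D.slab j, n x = D.prof n j := by
  obtain ⟨x, hx, hmax⟩ := (D.isCompact_slab j).exists_isMaxOn hne hn.continuousOn
  refine ⟨x, hx, le_antisymm (D.le_prof hn hx) ?_⟩
  refine csSup_le (hne.image n) ?_
  rintro _ ⟨y, hy, rfl⟩
  exact hmax hy

theorem prof_comp_sh (n : M → ℝ) (j k : ℤ) :
    D.prof (fun x => n (D.sh k x)) j = D.prof n (j + k) := by
  have : D.sh k '' D.slab j = D.slab (j + k) := by
    ext x
    constructor
    · rintro ⟨y, hy, rfl⟩
      exact D.sh_mem_slab.2 hy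
    · intro hx
      refine ⟨D.sh (-k) x, ?_, by simp⟩
      rw [← D.sh_mem_slab (k := k)]
      simpa using hx
  rw [prof, prof, ← this, image_image]

theorem prof_comp_γ (n : M → ℝ) (j : ℤ) : D.prof (fun x => n (D.γ x)) j = D.prof n (j + 1) := by
  rw [prof, prof, ← D.image_slab, image_image]

section
variable {V : Type*} [NormedAddCommGroup V] [InnerProductSpace ℂ V]

theorem dh_γ (x : M) : dh D.h (D.γ x) = dh D.h x := by
  rw [dh, D.h_γ, ← dh]

theorem n0_comp (κ : ℤ) (s : M → V) (x : M) :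
    n0 D.h κ (fun y => s (D.γ y)) x = n0 D.h κ s (D.γ x) := by
  simp only [n0, D.dh_γ]

theorem n1_comp (κ : ℤ) (a : M → Fin 2 → V) (x : M) :
    n1 D.h κ (fun y => a (D.γ y)) x = n1 D.h κ a (D.γ x) := by
  simp only [n1, nsq1, D.dh_γ, D.h_γ]

theorem n2_comp (κ : ℤ) (b : M → V) (x : M) :
    n2 D.h κ (fun y => b (D.γ y)) x = n2 D.h κ b (D.γ x) := by
  simp only [n2, D.dh_γ]

theorem n0_comp_sh (κ k : ℤ) (s : M → V) (x : M) :
    n0 D.h κ (fun y => s (D.sh k y)) x = n0 D.h κ s (D.sh k x) := by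
  simp only [n0, dh, D.h_sh]

theorem n1_comp_sh (κ k : ℤ) (a : M → Fin 2 → V) (x : M) :
    n1 D.h κ (fun y => a (D.sh k y)) x = n1 D.h κ a (D.sh k x) := by
  simp only [n1, nsq1, dh, D.h_sh]

theorem n2_comp_sh (κ k : ℤ) (b : M → V) (x : M) :
    n2 D.h κ (fun y => b (D.sh k y)) x = n2 D.h κ b (D.sh k x) := by
  simp only [n2, dh, D.h_sh]

/-- profiles of sections and forms -/
def p0 (κ : ℤ) (s : M → V) (j : ℤ) : ℝ := D.prof (n0 D.h κ s) j
/-- profiles of sections and forms -/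
def p1 (κ : ℤ) (a : M → Fin 2 → V) (j : ℤ) : ℝ := D.prof (n1 D.h κ a) j
/-- profiles of sections and forms -/
def p2 (κ : ℤ) (b : M → V) (j : ℤ) : ℝ := D.prof (n2 D.h κ b) j

end

/-! ### windows and transplantation to `X_m` -/

/-- number of the window (of length `m`, centred at `0`) containing `x` -/
def win (m : ℤ) (x : M) : ℤ := round (D.f x / m)

theorem win_sh {m : ℤ} (hm : m ≠ 0) (x : M) : D.win m (D.sh m x) = D.win m x + 1 := by
  have : (m : ℝ) ≠ 0 := by exact_mod_cast hm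
  rw [win, D.f_sh, add_div, div_self this, round_add_one, win]

/-- `x` moved to the central window -/
def mv (m : ℤ) (x : M) : M := D.sh (-(m * D.win m x)) x

theorem mv_sh {m : ℤ} (hm : m ≠ 0) (x : M) : D.mv m (D.sh m x) = D.mv m x := by
  rw [mv, D.win_sh hm, ← D.sh_add, mv]
  congr 1
  ring

theorem abs_f_mv {m : ℤ} (hm : 0 < m) (x : M) : |D.f (D.mv m x)| ≤ m / 2 := by
  have hm' : (0 : ℝ) < m := by exact_mod_cast hm
  have := abs_sub_round (D.f x / m)
  rw [mv, D.f_sh]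
  have e : D.f x + ((-(m * D.win m x) : ℤ) : ℝ) = m * (D.f x / m - round (D.f x / m)) := by
    rw [win]; push_cast; field_simp; ring
  rw [e, abs_mul, abs_of_pos hm']
  nlinarith

theorem win_eq_zero {m : ℤ} (hm : 0 < m) {x : M} (hx : |D.f x| < m / 2) : D.win m x = 0 := by
  have hm' : (0 : ℝ) < m := by exact_mod_cast hm
  rw [win, round_eq_zero_iff]
  rw [abs_lt] at hx
  constructor
  · rw [le_div_iff₀ hm']; linarith [hx.1]
  · rw [div_lt_iff₀ hm']; linarith [hx.2]

theorem mv_eq_self {m : ℤ} (hm : 0 < m) {x : M} (hx : |D.f x| < m / 2) : D.mv m x = x := by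
  rw [mv, D.win_eq_zero hm hx]; simp

/-- transplantation of an object supported in the central window to `X_m`, multiplier `μ` -/
def transp {V : Type*} [SMul ℂ V] (m : ℤ) (μ : ℂ) (u : M → V) (x : M) : V :=
  (μ ^ D.win m x) • u (D.mv m x)

theorem equiv_transp {V : Type*} [AddCommGroup V] [Module ℂ V] {m : ℤ} (hm : m ≠ 0) {μ : ℂ}
    (hμ : μ ≠ 0) (u : M → V) : D.Equiv m μ (D.transp m μ u) := by
  intro x
  rw [transp, transp, D.win_sh hm, D.mv_sh hm, zpow_add₀ hμ, zpow_one, mul_comm, mul_smul]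

theorem transp_eq {V : Type*} [AddCommGroup V] [Module ℂ V] {m : ℤ} (hm : 0 < m) {μ : ℂ}
    (u : M → V) {x : M} (hx : |D.f x| < m / 2) : D.transp m μ u x = u x := by
  rw [transp, D.win_eq_zero hm hx, D.mv_eq_self hm hx]; simp

/-! ### bundles of compactly supported class -/

variable {ι : Type} [Fintype ι] [DecidableEq ι]

/-- `(L, a)` is a holomorphic line bundle on `M` which is the trivial bundle spanned by the basis
vector `i₀` for `|f| ≥ R`, with `|a| + |tr_h ∂a| ≤ C e^{-N|f|}` -/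
structure EndTriv (L : LB M ι) (i₀ : ι) (a : M → Fin 2 → ℂ) (R N : ℝ) : Prop where
  hol : L.IsHol a
  ends : ∀ x, R ≤ |D.f x| → L.P x = Matrix.single i₀ i₀ 1
  decay : ∃ C, ∀ x, n1 D.h 0 a x ≤ C * Real.exp (-(N * |D.f x|))
  decay' : ∃ C, ∀ x, ‖trh D.h (del1 a) x‖ ≤ C * Real.exp (-(N * |D.f x|))

/-- a sequence `(L_m, a_m)`, `m ≥ m₀`, of line bundles on `X_m` which approximates `(L, a)` -/
structure PerSeq (L : LB M ι) (i₀ : ι) (a : M → Fin 2 → ℂ) (N : ℝ) (m₀ : ℕ)
    (Lm : ℕ → LB M ι) (am : ℕ → M → Fin 2 → ℂ) : Prop where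
  two_le : 2 ≤ m₀
  hol : ∀ m ≥ m₀, (Lm m).IsHol (am m)
  perP : ∀ m ≥ m₀, ∀ x, (Lm m).P x = L.P (D.mv m x)
  pera : ∀ m ≥ m₀, ∀ x, am m (D.sh m x) = am m x
  close : ∃ C, ∀ m ≥ m₀, ∀ x, |D.f x| ≤ m / 2 →
    n1 D.h 0 (fun y => am m y - a y) x ≤ C * Real.exp (-(N * m / 2))

end XTData

end Vale.Agent.P267.XT
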