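import Vale.Agent.P267.H877.Trans

/-!
# P267 / XT-AN: interfaces between the leaves of block A (helper877)

Everything is a `Prop` about one line bundle `(L, a)` on `M` (sections with values in `K^κ ⊗ L`),
one weight `w : ℤ → ℝ` and one constant `C`.  Uniform statements are obtained by quantifying:
one `C` for all `m ≥ m₁` and for the limit.
-/

set_option linter.unusedVariables false
set_option linter.unusedSectionVars false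

open scoped Manifold ContDiff ComplexConjugate Matrix ComplexOrder Topology
open MeasureTheory Set Filter

noncomputable section

namespace Vale.Agent.P267.XT

open FL

/-- weights: positive, logarithmic increments bounded by `Λ` -/
structure IsWt (Λ : ℝ) (w : ℤ → ℝ) : Prop where
  pos : ∀ j, 0 < w j
  up : ∀ j, w (j + 1) ≤ Real.exp Λ * w j
  down : ∀ j, w j ≤ Real.exp Λ * w (j + 1)

/-- the weight `e^{δ j}` -/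
def ew (δ : ℝ) (j : ℤ) : ℝ := Real.exp (δ * j)

theorem isWt_ew (δ : ℝ) : IsWt |δ| (ew δ) where
  pos j := Real.exp_pos _
  up j := by
    rw [ew, ew, ← Real.exp_add]
    apply Real.exp_le_exp.2
    push_cast
    nlinarith [le_abs_self δ]
  down j := by
    rw [ew, ew, ← Real.exp_add]
    apply Real.exp_le_exp.2
    push_cast
    nlinarith [neg_abs_le δ]

theorem IsWt.mono {Λ Λ' : ℝ} {w : ℤ → ℝ} (h : IsWt Λ w) (hl : Λ ≤ Λ') : IsWt Λ' w where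
  pos := h.pos
  up j := (h.up j).trans (mul_le_mul_of_nonneg_right (Real.exp_le_exp.2 hl) (h.pos j).le)
  down j := (h.down j).trans (mul_le_mul_of_nonneg_right (Real.exp_le_exp.2 hl) (h.pos _).le)

namespace XTData

variable {M : Type} [TopologicalSpace M] [ChartedSpace C2 M] (D : XTData M)
variable {ι : Type} [Fintype ι] [DecidableEq ι]

/-! ### degree 0 -/

/-- T0, sup form, on `M` (sections need not be equivariant; `L` may be periodic) -/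
def T0 (κ : ℤ) (L : LB M ι) (a : M → Fin 2 → ℂ) (w : ℤ → ℝ) (C : ℝ) : Prop :=
  ∀ u : M → EuclideanSpace ℂ ι, Reg0 ∞ κ u → L.Sec u → (∃ A, ∀ j, D.p0 κ u j ≤ A * w j) →
    ∀ B, (∀ j, D.p1 κ (L.db0 a κ u) j ≤ B * w j) → ∀ j, D.p0 κ u j ≤ C * B * w j

/-- T0, `l¹` form, compactly supported sections on `M` -/
def T0c (κ : ℤ) (L : LB M ι) (a : M → Fin 2 → ℂ) (w : ℤ → ℝ) (C : ℝ) : Prop :=
  ∀ u : M → EuclideanSpace ℂ ι, Reg0 ∞ κ u → L.Sec u → HasCompactSupport u →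
    ∑' j, w j * D.p0 κ u j ≤ C * ∑' j, w j * D.p1 κ (L.db0 a κ u) j

/-- T0, `l¹` form on `X_m`: sections with multiplier `μ⁻¹`, weights with `w (j + m) = |μ| w j` -/
def T0m (κ : ℤ) (L : LB M ι) (a : M → Fin 2 → ℂ) (m : ℕ) (μ : ℂ) (w : ℤ → ℝ) (C : ℝ) : Prop :=
  ∀ u : M → EuclideanSpace ℂ ι, Reg0 ∞ κ u → L.Sec u → D.Equiv m μ⁻¹ u →
    ∑ j ∈ Finset.range m, w j * D.p0 κ u j ≤
      C * ∑ j ∈ Finset.range m, w j * D.p1 κ (L.db0 a κ u) j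

/-! ### degree 2 -/

/-- T2 on `M`: `∂̄v = r`, `|r|_j ≤ B w_j`, `|v|_j ≤ C B w_j` -/
def T2 (L : LB M ι) (a : M → Fin 2 → ℂ) (w : ℤ → ℝ) (C : ℝ) : Prop :=
  ∀ r : M → EuclideanSpace ℂ ι, Reg2 ∞ 0 r → L.Sec r → ∀ B, 0 ≤ B → (∀ j, D.p2 0 r j ≤ B * w j) →
    ∃ v : M → Fin 2 → EuclideanSpace ℂ ι, Reg1 ∞ 0 v ∧ L.Sec1 v ∧ (∀ x, L.db1 a 0 v x = r x) ∧
      ∀ j, D.p1 0 v j ≤ C * B * w j

/-- T2 on `X_m` -/
def T2m (L : LB M ι) (a : M → Fin 2 → ℂ) (m : ℕ) (μ : ℂ) (w : ℤ → ℝ) (C : ℝ) : Prop :=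
  ∀ r : M → EuclideanSpace ℂ ι, Reg2 ∞ 0 r → L.Sec r → D.Equiv m μ r → ∀ B, 0 ≤ B →
    (∀ j, D.p2 0 r j ≤ B * w j) →
    ∃ v : M → Fin 2 → EuclideanSpace ℂ ι, Reg1 ∞ 0 v ∧ L.Sec1 v ∧ D.Equiv m μ v ∧
      (∀ x, L.db1 a 0 v x = r x) ∧ ∀ j, D.p1 0 v j ≤ C * B * w j

/-- the `C¹` estimate, for the trivial bundle (scalar forms) on `M`: if `r = 0` for
`|f - j| ≤ k₀` then also `|tr_h ∂v| ≤ C B w_j` on the slab `j` -/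
def T2s (k₀ : ℕ) (w : ℤ → ℝ) (C : ℝ) : Prop :=
  ∀ r : M → ℂ, Reg2 ∞ 0 r → ∀ B, 0 ≤ B → (∀ j, D.p2 0 r j ≤ B * w j) →
    ∃ v : M → Fin 2 → ℂ, Reg1 ∞ 0 v ∧ (∀ x, dbar1 0 v x = r x) ∧
      (∀ j, D.p1 0 v j ≤ C * B * w j) ∧
      ∀ j : ℤ, (∀ x, |D.f x - j| ≤ k₀ → r x = 0) →
        ∀ x ∈ D.slab j, ‖trh D.h (del1 v) x‖ ≤ C * B * w j

/-! ### degree 1 -/

/-- `dim H¹(X_m, (L, a) ⊗ L_μ) ≤ r`, as a statement on `M` -/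
def H1m (L : LB M ι) (a : M → Fin 2 → ℂ) (m : ℕ) (μ : ℂ) (r : ℕ) : Prop :=
  ∀ g : Fin (r + 1) → M → Fin 2 → EuclideanSpace ℂ ι,
    (∀ i, Reg1 ∞ 0 (g i) ∧ L.Sec1 (g i) ∧ D.Equiv m μ (g i) ∧ ∀ x, L.db1 a 0 (g i) x = 0) →
    ∃ c : Fin (r + 1) → ℂ, c ≠ 0 ∧ ∃ u : M → EuclideanSpace ℂ ι, Reg0 ∞ 0 u ∧ L.Sec u ∧ D.Equiv m μ u ∧
      ∀ x k, L.db0 a 0 u x k = ∑ i, c i • g i x k

/-- T1 on `M`, weight `e^{δ f}`: `dim H¹_δ(M, (L, a)) ≤ r` -/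
def T1 (L : LB M ι) (a : M → Fin 2 → ℂ) (δ : ℝ) (r : ℕ) : Prop :=
  ∀ g : Fin (r + 1) → M → Fin 2 → EuclideanSpace ℂ ι,
    (∀ i, Reg1 ∞ 0 (g i) ∧ L.Sec1 (g i) ∧ (∃ A, ∀ j, D.p1 0 (g i) j ≤ A * ew δ j) ∧
      ∀ x, L.db1 a 0 (g i) x = 0) →
    ∃ c : Fin (r + 1) → ℂ, c ≠ 0 ∧ ∃ u : M → EuclideanSpace ℂ ι, Reg0 ∞ 0 u ∧ L.Sec u ∧
      (∃ A, ∀ j, D.p0 0 u j ≤ A * ew δ j) ∧ ∀ x k, L.db0 a 0 u x k = ∑ i, c i • g i x k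

/-! ### normal families -/

/-- compact-open convergence of a sequence of `(0,1)`-forms -/
def Tend1 {V : Type*} [NormedAddCommGroup V] [InnerProductSpace ℂ V] (κ : ℤ)
    (gν : ℕ → M → Fin 2 → V) (g : M → Fin 2 → V) : Prop :=
  ∀ j : ℤ, Tendsto (fun ν => D.p1 κ (fun x => gν ν x - g x) j) atTop (𝓝 0)

/-- compact-open convergence of a sequence of sections -/
def Tend0 {V : Type*} [NormedAddCommGroup V] [InnerProductSpace ℂ V] (κ : ℤ)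
    (uν : ℕ → M → V) (u : M → V) : Prop :=
  ∀ j : ℤ, Tendsto (fun ν => D.p0 κ (fun x => uν ν x - u x) j) atTop (𝓝 0)

/-- convergence of line bundles -/
def TendL (Lν : ℕ → LB M ι) (L : LB M ι) : Prop :=
  ∀ j : ℤ, ∀ᶠ ν in atTop, ∀ x ∈ D.slab j, (Lν ν).P x = L.P x

/-- NF (378): compactness, with right hand sides converging to a closed form -/
def NF : Prop :=
  ∀ (ι : Type) [Fintype ι] [DecidableEq ι] (κ : ℤ) (L : LB M ι) (a : M → Fin 2 → ℂ)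
    (Lν : ℕ → LB M ι) (aν : ℕ → M → Fin 2 → ℂ) (g : M → Fin 2 → EuclideanSpace ℂ ι)
    (uν : ℕ → M → EuclideanSpace ℂ ι),
    L.IsHol a → (∀ ν, (Lν ν).IsHol (aν ν)) → D.TendL Lν L → D.Tend1 0 aν a →
    Reg1 ∞ κ g → L.Sec1 g → (∀ x, L.db1 a κ g x = 0) →
    (∀ ν, Reg0 ∞ κ (uν ν)) → (∀ ν, (Lν ν).Sec (uν ν)) →
    (∀ j, ∃ B, ∀ ν, D.p0 κ (uν ν) j ≤ B) →
    D.Tend1 κ (fun ν => (Lν ν).db0 (aν ν) κ (uν ν)) g →
    ∃ φ : ℕ → ℕ, StrictMono φ ∧ ∃ u : M → EuclideanSpace ℂ ι, Reg0 ∞ κ u ∧ L.Sec u ∧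
      (∀ x i, L.db0 a κ u x i = g x i) ∧ D.Tend0 κ (fun ν => uν (φ ν)) u

/-! ### vanishing -/

/-- no nonzero holomorphic section of `K^κ ⊗ (L, a)` with `|v|_j ≤ A ρ_j` -/
def Van (κ : ℤ) (L : LB M ι) (a : M → Fin 2 → ℂ) (ρ : ℤ → ℝ) : Prop :=
  ∀ v : M → EuclideanSpace ℂ ι, Reg0 ∞ κ v → L.Sec v → (∀ x i, L.db0 a κ v x i = 0) →
    (∃ A, ∀ j, D.p0 κ v j ≤ A * ρ j) → ∀ x, v x = 0

/-- (I2): no Floquet sections of `K` -/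
def NoFloquetK : Prop :=
  ∀ (μ : ℂ) (v : M → ℂ), μ ≠ 0 → Reg0 ∞ 1 v → (∀ x i, dbar0 1 v x i = 0) →
    (∀ x, v (D.γ x) = μ • v x) → ∀ x, v x = 0

/-- (I1) the root gap: holomorphic functions with growth at most `e^{d'|f|}` are constant, and
those which decay at one end vanish -/
structure RootGap (d' : ℝ) : Prop where
  pos : 0 < d'
  const : ∀ v : M → ℂ, Reg0 ∞ 0 v → (∀ x i, dbar0 0 v x i = 0) →
    (∃ A, ∀ x, ‖v x‖ ≤ A * Real.exp (d' * |D.f x|)) → ∃ b, ∀ x, v x = b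
  out : ∀ (v : M → ℂ) (ε : ℝ), 0 < ε → ε ≤ d' → Reg0 ∞ 0 v → (∀ x i, dbar0 0 v x i = 0) →
    (∃ A, ∀ x, ‖v x‖ ≤ A * Real.exp (max (ε * D.f x) (d' * D.f x))) → ∀ x, v x = 0
  inn : ∀ (v : M → ℂ) (ε N : ℝ), 0 < ε → ε ≤ N → Reg0 ∞ 0 v → (∀ x i, dbar0 0 v x i = 0) →
    (∃ A, ∀ x, ‖v x‖ ≤ A * Real.exp (max (-(ε * D.f x)) (-(N * D.f x)))) → ∀ x, v x = 0

end XTData

end Vale.Agent.P267.XT
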