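import Vale.Agent.P267.H877.Setup
import Vale.Agent.P267.H399.Calc

/-!
# P267 / XT-AN: maps which preserve the preferred charts as germs (coverings, deck translations):
pullback of pointwise objects is composition (helper877)
-/

set_option linter.unusedVariables false
set_option linter.unusedSectionVars false

open scoped Manifold ContDiff ComplexConjugate Matrix ComplexOrder Topology
open MeasureTheory Set Filter

noncomputable section

namespace Vale.Agent.P267.XT

open FL

section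

variable {Y X : Type*} [TopologicalSpace Y] [ChartedSpace C2 Y] [TopologicalSpace X]
  [ChartedSpace C2 X]

/-- `g` is continuous and carries preferred charts to preferred charts, as germs -/
structure ChartMap (g : Y → X) : Prop where
  cont : Continuous g
  germ : ∀ y, (fun z => chartAt C2 (g y) (g z)) =ᶠ[𝓝 y] fun z => chartAt C2 y z

variable {g : Y → X} (hg : ChartMap g)

namespace ChartMap

include hg

theorem apply_eq (y : Y) : chartAt C2 (g y) (g y) = chartAt C2 y y := (hg.germ y).self_of_nhds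

theorem symm_germ (y : Y) :
    ∀ᶠ z in 𝓝 (chartAt C2 y y), (chartAt C2 (g y)).symm z = g ((chartAt C2 y).symm z) := by
  set e := chartAt C2 y
  set e' := chartAt C2 (g y)
  have hc : ContinuousAt e.symm (e y) := e.continuousAt_symm (mem_chart_target C2 y)
  have hc0 : e.symm (e y) = y := e.left_inv (mem_chart_source C2 y)
  have h1 : ∀ᶠ z in 𝓝 (e y), e' (g (e.symm z)) = e (e.symm z) := by
    have := hg.germ y
    rw [← hc0] at this
    exact (hc.eventually this).mono fun z hz => by simpa [hc0] using hz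
  have h2 : ∀ᶠ z in 𝓝 (e y), g (e.symm z) ∈ e'.source := by
    have : ContinuousAt (fun z => g (e.symm z)) (e y) := hg.cont.continuousAt.comp hc
    apply this.eventually_mem
    simp only [hc0]
    exact e'.open_source.mem_nhds (mem_chart_source C2 (g y))
  have h3 : ∀ᶠ z in 𝓝 (e y), z ∈ e.target := e.open_target.mem_nhds (mem_chart_target C2 y)
  filter_upwards [h1, h2, h3] with z hz1 hz2 hz3
  rw [← e'.left_inv hz2, hz1, e.right_inv hz3]

theorem jac_eq (y : Y) :
    ∀ᶠ z in 𝓝 y, jac (chartAt C2 (g y)) (g z) = jac (chartAt C2 y) z := by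
  have h0 := (hg.symm_germ y).eventually_nhds
  have hc : ContinuousAt (chartAt C2 y) y :=
    (chartAt C2 y).continuousAt (mem_chart_source C2 y)
  have h1 := hc.eventually h0
  have h2 := (hg.germ y)
  have h3 : ∀ᶠ z in 𝓝 y, z ∈ (chartAt C2 y).source :=
    (chartAt C2 y).open_source.mem_nhds (mem_chart_source C2 y)
  filter_upwards [h1, h2, h3] with z hz1 hz2 hz3
  have key : ∀ p, (fun w => chartAt C2 (g z) ((chartAt C2 (g y)).symm w) p) =ᶠ[𝓝 (chartAt C2 y z)]
      fun w => chartAt C2 z ((chartAt C2 y).symm w) p := by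
    intro p
    have hcs : ContinuousAt (chartAt C2 y).symm (chartAt C2 y z) :=
      (chartAt C2 y).continuousAt_symm ((chartAt C2 y).map_source hz3)
    have hcz : (chartAt C2 y).symm (chartAt C2 y z) = z := (chartAt C2 y).left_inv hz3
    have h4 : ∀ᶠ w in 𝓝 (chartAt C2 y z), chartAt C2 (g z) (g ((chartAt C2 y).symm w)) =
        chartAt C2 z ((chartAt C2 y).symm w) := by
      have := hg.germ z
      rw [← hcz] at this
      exact (hcs.eventually this).mono fun z hz => by simpa [hcz] using hz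
    filter_upwards [hz1, h4] with w hw1 hw2
    rw [hw1, hw2]
  ext p i
  rw [jac, jac, jacM, jacM, Matrix.of_apply, Matrix.of_apply, hz2]
  exact dz_congr (key p) i

theorem jac_symm_eq (y : Y) :
    ∀ᶠ z in 𝓝 (chartAt C2 y y),
      jac (chartAt C2 (g y)) ((chartAt C2 (g y)).symm z) = jac (chartAt C2 y) ((chartAt C2 y).symm z) := by
  have hc : ContinuousAt (chartAt C2 y).symm (chartAt C2 y y) :=
    (chartAt C2 y).continuousAt_symm (mem_chart_target C2 y)
  have hc0 : (chartAt C2 y).symm (chartAt C2 y y) = y :=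
    (chartAt C2 y).left_inv (mem_chart_source C2 y)
  have h1 := hg.jac_eq y
  have h2 : ∀ᶠ z in 𝓝 (chartAt C2 y y), jac (chartAt C2 (g y)) (g ((chartAt C2 y).symm z)) =
      jac (chartAt C2 y) ((chartAt C2 y).symm z) := by
    rw [← hc0] at h1
    exact (hc.eventually h1).mono fun z hz => by simpa [hc0] using hz
  filter_upwards [h2, hg.symm_germ y] with z hz1 hz2
  rw [hz2, hz1]

section
variable {V : Type*} [NormedAddCommGroup V] [NormedSpace ℂ V]

theorem loc0_germ (κ : ℤ) (s : X → V) (y : Y) :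
    loc0 κ (chartAt C2 (g y)) s =ᶠ[𝓝 (chartAt C2 y y)] loc0 κ (chartAt C2 y) (fun z => s (g z)) := by
  filter_upwards [hg.jac_symm_eq y, hg.symm_germ y] with z hz1 hz2
  rw [loc0, loc0, hz1, hz2]

theorem loc1_germ (κ : ℤ) (a : X → Fin 2 → V) (y : Y) :
    loc1 κ (chartAt C2 (g y)) a =ᶠ[𝓝 (chartAt C2 y y)] loc1 κ (chartAt C2 y) (fun z => a (g z)) := by
  filter_upwards [hg.jac_symm_eq y, hg.symm_germ y] with z hz1 hz2
  funext i
  rw [loc1, loc1, hz1, hz2]

theorem loc2_germ (κ : ℤ) (b : X → V) (y : Y) :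
    loc2 κ (chartAt C2 (g y)) b =ᶠ[𝓝 (chartAt C2 y y)] loc2 κ (chartAt C2 y) (fun z => b (g z)) := by
  filter_upwards [hg.jac_symm_eq y, hg.symm_germ y] with z hz1 hz2
  rw [loc2, loc2, hz1, hz2]

theorem loc10_germ (c : X → Fin 2 → V) (y : Y) :
    loc10 (chartAt C2 (g y)) c =ᶠ[𝓝 (chartAt C2 y y)] loc10 (chartAt C2 y) (fun z => c (g z)) := by
  filter_upwards [hg.jac_symm_eq y, hg.symm_germ y] with z hz1 hz2
  funext i
  rw [loc10, loc10, hz1, hz2]

theorem loc11_germ (c : X → Matrix (Fin 2) (Fin 2) V) (y : Y) :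
    loc11 (chartAt C2 (g y)) c =ᶠ[𝓝 (chartAt C2 y y)] loc11 (chartAt C2 y) (fun z => c (g z)) := by
  filter_upwards [hg.jac_symm_eq y, hg.symm_germ y] with z hz1 hz2
  rw [loc11, loc11, hz1, hz2]

theorem dbar0_comp (κ : ℤ) (s : X → V) (y : Y) :
    dbar0 κ (fun z => s (g z)) y = dbar0 κ s (g y) := by
  funext i
  rw [dbar0, dbar0, hg.apply_eq]
  exact (dzb_congr (hg.loc0_germ κ s y) i).symm

theorem dbar1_comp (κ : ℤ) (a : X → Fin 2 → V) (y : Y) :
    dbar1 κ (fun z => a (g z)) y = dbar1 κ a (g y) := by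
  rw [dbar1, dbar1, hg.apply_eq]
  have h := hg.loc1_germ κ a y
  have h1 : ∀ i, (fun z => loc1 κ (chartAt C2 (g y)) a z i) =ᶠ[𝓝 (chartAt C2 y y)]
      fun z => loc1 κ (chartAt C2 y) (fun z => a (g z)) z i := fun i =>
    h.mono fun z hz => congrFun hz i
  rw [dzb_congr (h1 0), dzb_congr (h1 1)]

theorem del0_comp (s : X → V) (y : Y) : del0 (fun z => s (g z)) y = del0 s (g y) := by
  funext i
  rw [del0, del0, hg.apply_eq]
  refine dz_congr ?_ i
  filter_upwards [hg.symm_germ y] with z hz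
  rw [hz]

theorem del1_comp (a : X → Fin 2 → V) (y : Y) :
    del1 (fun z => a (g z)) y = del1 a (g y) := by
  ext i j
  rw [del1, del1, Matrix.of_apply, Matrix.of_apply, hg.apply_eq]
  refine dz_congr ?_ i
  exact (hg.loc1_germ 0 a y).mono fun z hz => (congrFun hz j).symm

theorem dbar10_comp (a : X → Fin 2 → V) (y : Y) :
    dbar10 (fun z => a (g z)) y = dbar10 a (g y) := by
  ext i j
  rw [dbar10, dbar10, Matrix.of_apply, Matrix.of_apply, hg.apply_eq]
  congr 1
  refine dzb_congr ?_ j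
  exact (hg.loc10_germ a y).mono fun z hz => (congrFun hz i).symm

theorem ddb_comp (u : X → V) (y : Y) : ddb (fun z => u (g z)) y = ddb u (g y) := by
  rw [ddb, ddb]
  have : (dbar0 0 fun z => u (g z)) = fun z => dbar0 0 u (g z) := by
    funext z
    exact hg.dbar0_comp 0 u z
  rw [this]
  exact hg.del1_comp (dbar0 0 u) y

variable [IsManifold 𝓘(ℂ, C2) ω X] [IsManifold 𝓘(ℂ, C2) ω Y]

theorem reg0_comp {n : WithTop ℕ∞} {κ : ℤ} {s : X → V} (hs : Reg0 n κ s) :
    Reg0 n κ fun z => s (g z) := by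
  rw [reg0_iff] at hs ⊢
  intro y
  have := hs (g y)
  rw [hg.apply_eq] at this
  exact this.congr_of_eventuallyEq (hg.loc0_germ κ s y).symm

theorem reg1_comp {n : WithTop ℕ∞} {κ : ℤ} {a : X → Fin 2 → V} (hs : Reg1 n κ a) :
    Reg1 n κ fun z => a (g z) := by
  rw [reg1_iff] at hs ⊢
  intro y
  have := hs (g y)
  rw [hg.apply_eq] at this
  exact this.congr_of_eventuallyEq (hg.loc1_germ κ a y).symm

theorem reg2_comp {n : WithTop ℕ∞} {κ : ℤ} {b : X → V} (hs : Reg2 n κ b) :
    Reg2 n κ fun z => b (g z) := by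
  rw [reg2_iff] at hs ⊢
  intro y
  have := hs (g y)
  rw [hg.apply_eq] at this
  exact this.congr_of_eventuallyEq (hg.loc2_germ κ b y).symm

/-- for a surjective `g` -/
theorem reg0_comp_iff (hsurj : Function.Surjective g) {n : WithTop ℕ∞} {κ : ℤ} {s : X → V} :
    Reg0 n κ (fun z => s (g z)) ↔ Reg0 n κ s := by
  refine ⟨fun h => ?_, fun h => hg.reg0_comp h⟩
  rw [reg0_iff] at h ⊢
  intro x
  obtain ⟨y, rfl⟩ := hsurj x
  rw [hg.apply_eq]
  exact (h y).congr_of_eventuallyEq (hg.loc0_germ κ s y)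

theorem reg1_comp_iff (hsurj : Function.Surjective g) {n : WithTop ℕ∞} {κ : ℤ}
    {a : X → Fin 2 → V} : Reg1 n κ (fun z => a (g z)) ↔ Reg1 n κ a := by
  refine ⟨fun h => ?_, fun h => hg.reg1_comp h⟩
  rw [reg1_iff] at h ⊢
  intro x
  obtain ⟨y, rfl⟩ := hsurj x
  rw [hg.apply_eq]
  exact (h y).congr_of_eventuallyEq (hg.loc1_germ κ a y)

theorem reg2_comp_iff (hsurj : Function.Surjective g) {n : WithTop ℕ∞} {κ : ℤ} {b : X → V} :
    Reg2 n κ (fun z => b (g z)) ↔ Reg2 n κ b := by
  refine ⟨fun h => ?_, fun h => hg.reg2_comp h⟩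
  rw [reg2_iff] at h ⊢
  intro x
  obtain ⟨y, rfl⟩ := hsurj x
  rw [hg.apply_eq]
  exact (h y).congr_of_eventuallyEq (hg.loc2_germ κ b y)

end

end ChartMap

/-! ### line bundles -/

section lb
variable {ι : Type} [Fintype ι] [DecidableEq ι]
variable [IsManifold 𝓘(ℂ, C2) ω X] [IsManifold 𝓘(ℂ, C2) ω Y]

/-- pullback of a line bundle by a chart preserving map -/
def ChartMap.lb (L : LB X ι) : LB Y ι where
  P y := L.P (g y)
  smooth i j := hg.reg0_comp (L.smooth i j)
  herm y := L.herm (g y)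
  idem y := L.idem (g y)
  tr y := L.tr (g y)

namespace ChartMap

@[simp] theorem lb_P (L : LB X ι) (y : Y) : (hg.lb L).P y = L.P (g y) := rfl

theorem lb_sec {L : LB X ι} {s : X → EuclideanSpace ℂ ι} (h : L.Sec s) :
    (hg.lb L).Sec fun y => s (g y) := fun y => h (g y)

theorem lb_sec1 {L : LB X ι} {w : X → Fin 2 → EuclideanSpace ℂ ι} (h : L.Sec1 w) :
    (hg.lb L).Sec1 fun y => w (g y) := fun y i => h (g y) i

theorem lb_dual (L : LB X ι) : (hg.lb L).dual = hg.lb L.dual := rfl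

theorem lb_db0 (L : LB X ι) (a : X → Fin 2 → ℂ) (κ : ℤ) (s : X → EuclideanSpace ℂ ι) (y : Y) :
    (hg.lb L).db0 (fun z => a (g z)) κ (fun z => s (g z)) y = L.db0 a κ s (g y) := by
  funext i
  simp only [LB.db0, hg.dbar0_comp, lb_P]

theorem lb_db1 (L : LB X ι) (a : X → Fin 2 → ℂ) (κ : ℤ) (w : X → Fin 2 → EuclideanSpace ℂ ι)
    (y : Y) :
    (hg.lb L).db1 (fun z => a (g z)) κ (fun z => w (g z)) y = L.db1 a κ w (g y) := by
  simp only [LB.db1, hg.dbar1_comp, lb_P]

include hg in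
theorem lb_dbarP (L : LB X ι) (y : Y) (i j : ι) :
    dbar0 0 (fun z => L.P (g z) i j) y = dbar0 0 (fun z => L.P z i j) (g y) :=
  hg.dbar0_comp 0 (fun z => L.P z i j) y

include hg in
theorem lb_delP (L : LB X ι) (y : Y) (i j : ι) :
    del0 (fun z => L.P (g z) i j) y = del0 (fun z => L.P z i j) (g y) :=
  hg.del0_comp (fun z => L.P z i j) y

theorem lb_F02 (L : LB X ι) (y : Y) : (hg.lb L).F02 y = L.F02 (g y) := by
  simp only [LB.F02, lb_P, hg.lb_dbarP]

theorem lb_F20 (L : LB X ι) (y : Y) : (hg.lb L).F20 y = L.F20 (g y) := by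
  simp only [LB.F20, lb_P, hg.lb_delP]

theorem lb_F11 (L : LB X ι) (y : Y) : (hg.lb L).F11 y = L.F11 (g y) := by
  simp only [LB.F11, lb_P, hg.lb_delP, hg.lb_dbarP]

theorem lb_isHol {L : LB X ι} {a : X → Fin 2 → ℂ} (h : L.IsHol a) :
    (hg.lb L).IsHol fun y => a (g y) where
  smooth := hg.reg1_comp h.smooth
  integrable y := by rw [hg.dbar1_comp, hg.lb_F02]; exact h.integrable (g y)

include hg in
theorem del10_comp (c : X → Fin 2 → ℂ) (y : Y) :
    del10 (fun z => c (g z)) y = del10 c (g y) := by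
  rw [del10, del10, hg.apply_eq]
  have h1 : ∀ i, (fun z => loc10 (chartAt C2 (g y)) c z i) =ᶠ[𝓝 (chartAt C2 y y)]
      fun z => loc10 (chartAt C2 y) (fun z => c (g z)) z i := fun i =>
    (hg.loc10_germ c y).mono fun z hz => congrFun hz i
  rw [dz_congr (h1 0), dz_congr (h1 1)]

theorem lb_chern11 (L : LB X ι) (a : X → Fin 2 → ℂ) (y : Y) :
    ((hg.lb L).chern fun z => a (g z)).f11 y = (L.chern a).f11 (g y) := by
  simp only [LB.chern, hg.lb_F11, hg.del1_comp,
    hg.dbar10_comp (fun (x : X) i => -conj (a x i))]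

end ChartMap

end lb

end

/-! ### deck translations -/

namespace XTData

variable {M : Type} [TopologicalSpace M] [ChartedSpace C2 M] (D : XTData M)

theorem chartMap_sh (k : ℤ) : ChartMap (D.sh k) := ⟨D.continuous_sh k, D.chart_sh k⟩

theorem sh_surjective (k : ℤ) : Function.Surjective (D.sh k) := fun x => ⟨D.sh (-k) x, by simp⟩

theorem sh_injective (k : ℤ) : Function.Injective (D.sh k) := fun x y h => by
  rw [← D.sh_neg_sh k x, h, D.sh_neg_sh]

variable [IsManifold 𝓘(ℂ, C2) ω M] {ι : Type} [Fintype ι] [DecidableEq ι]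

/-- translate of a line bundle: fibre at `x` = fibre of `L` at `γ^k x` -/
def shL (k : ℤ) (L : LB M ι) : LB M ι := (D.chartMap_sh k).lb L

@[simp] theorem shL_P (k : ℤ) (L : LB M ι) (x : M) : (D.shL k L).P x = L.P (D.sh k x) := rfl

end XTData

end Vale.Agent.P267.XT
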