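import Vale.Agent.P267.H877.Trans

/-!
# P267 / XT-AN: pointwise norms `n0`, `n1`, `n2`: chart formulas, continuity, triangle inequality,
wedge estimate (helper877)
-/

set_option linter.unusedVariables false
set_option linter.unusedSectionVars false

open scoped Manifold ContDiff ComplexConjugate Matrix ComplexOrder Topology
open MeasureTheory Set Filter

noncomputable section

namespace Vale.Agent.P267.XT

open FL

section alg

variable {V : Type*} [NormedAddCommGroup V] [InnerProductSpace ℂ V]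

/-- the sesquilinear expression behind `nsq1` -/
def gsum (W : Matrix (Fin 2) (Fin 2) ℂ) (a : Fin 2 → V) : ℂ :=
  ∑ i, ∑ j, W j i * inner ℂ (a i) (a j)

theorem gsum_change (W A : Matrix (Fin 2) (Fin 2) ℂ) (a : Fin 2 → V) :
    gsum W (fun i => ∑ p, A i p • a p) = gsum (Aᵀ * W * A.map conj) a := by
  simp only [gsum, Fin.sum_univ_two, inner_add_left, inner_add_right, inner_smul_left,
    inner_smul_right, Matrix.mul_apply, Matrix.transpose_apply, Matrix.map_apply]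
  ring

theorem gsum_smul (W : Matrix (Fin 2) (Fin 2) ℂ) (c : ℂ) (a : Fin 2 → V) :
    gsum W (fun i => c • a i) = (‖c‖ ^ 2 : ℝ) * gsum W a := by
  have hc : (c * conj c) = ((‖c‖ ^ 2 : ℝ) : ℂ) := by
    rw [Complex.mul_conj, Complex.normSq_eq_norm_sq]
  simp only [gsum, Fin.sum_univ_two, inner_smul_left, inner_smul_right]
  rw [← hc]
  ring

theorem gsum_one (a : Fin 2 → V) : gsum 1 a = ((‖a 0‖ ^ 2 + ‖a 1‖ ^ 2 : ℝ) : ℂ) := by
  simp only [gsum, Fin.sum_univ_two, Matrix.one_apply_eq, one_mul]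
  rw [Matrix.one_apply_ne (by decide), Matrix.one_apply_ne (by decide)]
  simp [inner_self_eq_norm_sq_to_K]

open scoped MatrixOrder in
theorem exists_sq {A : Matrix (Fin 2) (Fin 2) ℂ} (hA : A.PosSemidef) : ∃ B, A = Bᴴ * B := by
  obtain ⟨B, hB⟩ := CStarAlgebra.nonneg_iff_eq_star_mul_self.mp hA.nonneg
  exact ⟨B, hB⟩

/-- a linear change of coframe which makes the metric standard -/
theorem exists_coframe {H : Matrix (Fin 2) (Fin 2) ℂ} (hH : H.PosDef) :
    ∃ B : Matrix (Fin 2) (Fin 2) ℂ, H⁻¹ = Bᴴ * B ∧ ‖B.det‖ ^ 2 = (H.det.re)⁻¹ := by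
  have h1 : (H⁻¹).PosDef := hH.inv
  obtain ⟨B, hB⟩ := exists_sq h1.posSemidef
  refine ⟨B, hB, ?_⟩
  have h2 : (H⁻¹).det = (H.det)⁻¹ := by rw [Matrix.det_nonsing_inv, Ring.inverse_eq_inv']
  have h3 : (H⁻¹).det = ((‖B.det‖ ^ 2 : ℝ) : ℂ) := by
    rw [hB, Matrix.det_mul, Matrix.det_conjTranspose, mul_comm]
    rw [← Complex.normSq_eq_norm_sq, ← Complex.mul_conj]
    rfl
  have h4 : 0 < H.det := hH.det_pos
  have h5 : H.det = ((H.det.re : ℝ) : ℂ) := by
    have := (Complex.pos_iff.1 h4).2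
    apply Complex.ext
    · simp
    · simpa using this.symm
  rw [h3, h5, ← Complex.ofReal_inv] at h2
  exact_mod_cast h2

theorem gsum_inv {H B : Matrix (Fin 2) (Fin 2) ℂ} (hB : H⁻¹ = Bᴴ * B) (a : Fin 2 → V) :
    gsum H⁻¹ a = ((‖∑ p, conj (B 0 p) • a p‖ ^ 2 + ‖∑ p, conj (B 1 p) • a p‖ ^ 2 : ℝ) : ℂ) := by
  have h := gsum_change (1 : Matrix (Fin 2) (Fin 2) ℂ) (B.map conj) a
  have h2 : (B.map conj)ᵀ * (1 : Matrix (Fin 2) (Fin 2) ℂ) * (B.map conj).map conj = H⁻¹ := by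
    rw [hB, mul_one]
    congr 1
    ext i j
    simp
  rw [h2] at h
  rw [← h, gsum_one]
  simp

end alg

section pt

variable {M : Type} [TopologicalSpace M] [ChartedSpace C2 M]
variable {V : Type*} [NormedAddCommGroup V] [InnerProductSpace ℂ V]
variable {h : M → Matrix (Fin 2) (Fin 2) ℂ}

theorem nsq1_eq (a : M → Fin 2 → V) (x : M) : nsq1 h a x = (gsum (h x)⁻¹ (a x)).re := rfl

theorem dh_pos (hh : IsHerm h) (x : M) : 0 < dh h x :=
  (Complex.pos_iff.1 (hh.posDef x).det_pos).1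

theorem nsq1_nonneg (hh : IsHerm h) (a : M → Fin 2 → V) (x : M) : 0 ≤ nsq1 h a x := by
  obtain ⟨B, hB, -⟩ := exists_coframe (hh.posDef x)
  rw [nsq1_eq, gsum_inv hB, Complex.ofReal_re]
  positivity

theorem n0_nonneg (hh : IsHerm h) (κ : ℤ) (s : M → V) (x : M) : 0 ≤ n0 h κ s x :=
  mul_nonneg (norm_nonneg _) (Real.rpow_nonneg (dh_pos hh x).le _)

theorem n1_nonneg (hh : IsHerm h) (κ : ℤ) (a : M → Fin 2 → V) (x : M) : 0 ≤ n1 h κ a x :=
  mul_nonneg (Real.sqrt_nonneg _) (Real.rpow_nonneg (dh_pos hh x).le _)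

theorem n2_nonneg (hh : IsHerm h) (κ : ℤ) (b : M → V) (x : M) : 0 ≤ n2 h κ b x :=
  mul_nonneg (norm_nonneg _) (Real.rpow_nonneg (dh_pos hh x).le _)

@[simp] theorem n0_zero_exp (s : M → V) (x : M) : n0 h 0 s x = ‖s x‖ := by simp [n0]

@[simp] theorem n1_zero_exp (a : M → Fin 2 → V) (x : M) : n1 h 0 a x = Real.sqrt (nsq1 h a x) := by
  simp [n1]

theorem n0_add_le (hh : IsHerm h) (κ : ℤ) (s t : M → V) (x : M) :
    n0 h κ (fun y => s y + t y) x ≤ n0 h κ s x + n0 h κ t x := by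
  rw [n0, n0, n0, ← add_mul]
  exact mul_le_mul_of_nonneg_right (norm_add_le _ _) (Real.rpow_nonneg (dh_pos hh x).le _)

theorem n0_smul (κ : ℤ) (c : M → ℂ) (s : M → V) (x : M) :
    n0 h κ (fun y => c y • s y) x = ‖c x‖ * n0 h κ s x := by
  rw [n0, n0, norm_smul, mul_assoc]

theorem n2_add_le (hh : IsHerm h) (κ : ℤ) (s t : M → V) (x : M) :
    n2 h κ (fun y => s y + t y) x ≤ n2 h κ s x + n2 h κ t x := by
  rw [n2, n2, n2, ← add_mul]
  exact mul_le_mul_of_nonneg_right (norm_add_le _ _) (Real.rpow_nonneg (dh_pos hh x).le _)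

theorem n2_smul (κ : ℤ) (c : M → ℂ) (s : M → V) (x : M) :
    n2 h κ (fun y => c y • s y) x = ‖c x‖ * n2 h κ s x := by
  rw [n2, n2, norm_smul, mul_assoc]

theorem n1_smul (κ : ℤ) (c : M → ℂ) (a : M → Fin 2 → V) (x : M) :
    n1 h κ (fun y => c y • a y) x = ‖c x‖ * n1 h κ a x := by
  have : nsq1 h (fun y => c y • a y) x = ‖c x‖ ^ 2 * nsq1 h a x := by
    have := gsum_smul (h x)⁻¹ (c x) (a x)
    rw [nsq1_eq, nsq1_eq]
    show (gsum (h x)⁻¹ fun i => c x • a x i).re = _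
    rw [this, Complex.re_ofReal_mul]
  rw [n1, n1, this, Real.sqrt_mul (by positivity), Real.sqrt_sq (norm_nonneg _), mul_assoc]

/-- `n1` in an orthonormal coframe -/
theorem n1_coframe (κ : ℤ) (a : M → Fin 2 → V) (x : M) {B : Matrix (Fin 2) (Fin 2) ℂ}
    (hB : (h x)⁻¹ = Bᴴ * B) :
    n1 h κ a x = Real.sqrt (‖∑ p, conj (B 0 p) • a x p‖ ^ 2 + ‖∑ p, conj (B 1 p) • a x p‖ ^ 2) *
      dh h x ^ (-(κ : ℝ) / 2) := by
  rw [n1, nsq1_eq, gsum_inv hB, Complex.ofReal_re]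

theorem sqrt_add_sq_le {a b c d : ℝ} :
    Real.sqrt ((a + c) ^ 2 + (b + d) ^ 2) ≤ Real.sqrt (a ^ 2 + b ^ 2) + Real.sqrt (c ^ 2 + d ^ 2) := by
  have h1 := Real.sq_sqrt (show 0 ≤ a ^ 2 + b ^ 2 by positivity)
  have h2 := Real.sq_sqrt (show 0 ≤ c ^ 2 + d ^ 2 by positivity)
  have h3 := Real.sqrt_nonneg (a ^ 2 + b ^ 2)
  have h4 := Real.sqrt_nonneg (c ^ 2 + d ^ 2)
  apply Real.sqrt_le_iff.2
  refine ⟨by positivity, ?_⟩
  have h5 : a * c + b * d ≤ Real.sqrt (a ^ 2 + b ^ 2) * Real.sqrt (c ^ 2 + d ^ 2) := by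
    rw [← Real.sqrt_mul (by positivity)]
    apply Real.le_sqrt_of_sq_le
    nlinarith [sq_nonneg (a * d - b * c)]
  nlinarith

theorem n1_add_le (hh : IsHerm h) (κ : ℤ) (a b : M → Fin 2 → V) (x : M) :
    n1 h κ (fun y i => a y i + b y i) x ≤ n1 h κ a x + n1 h κ b x := by
  obtain ⟨B, hB, -⟩ := exists_coframe (hh.posDef x)
  rw [n1_coframe κ _ x hB, n1_coframe κ _ x hB, n1_coframe κ _ x hB, ← add_mul]
  refine mul_le_mul_of_nonneg_right ?_ (Real.rpow_nonneg (dh_pos hh x).le _)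
  refine le_trans ?_ sqrt_add_sq_le
  apply Real.sqrt_le_sqrt
  have e : ∀ k, ∑ p, conj (B k p) • (a x p + b x p) =
      (∑ p, conj (B k p) • a x p) + ∑ p, conj (B k p) • b x p := by
    intro k
    rw [← Finset.sum_add_distrib]
    simp only [smul_add]
  rw [e, e]
  gcongr <;> exact norm_add_le _ _

/-- a component is bounded by the norm, in an orthonormal coframe -/
theorem wedge_le {V : Type*} [NormedAddCommGroup V] [NormedSpace ℂ V] (a : Fin 2 → ℂ)
    (w : Fin 2 → V) : ‖a 0 • w 1 - a 1 • w 0‖ ≤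
      Real.sqrt (‖a 0‖ ^ 2 + ‖a 1‖ ^ 2) * Real.sqrt (‖w 0‖ ^ 2 + ‖w 1‖ ^ 2) := by
  rw [← Real.sqrt_mul (by positivity)]
  apply Real.le_sqrt_of_sq_le
  have h1 : ‖a 0 • w 1 - a 1 • w 0‖ ≤ ‖a 0‖ * ‖w 1‖ + ‖a 1‖ * ‖w 0‖ := by
    refine (norm_sub_le _ _).trans ?_
    rw [norm_smul, norm_smul]
  have h2 := pow_le_pow_left₀ (norm_nonneg _) h1 2
  nlinarith [sq_nonneg (‖a 0‖ * ‖w 0‖ - ‖a 1‖ * ‖w 1‖)]

/-- the wedge of a scalar `(0,1)`-form and a vector valued `(0,1)`-form -/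
theorem n2_wedge_le (hh : IsHerm h) (κ : ℤ) (a : M → Fin 2 → ℂ) (w : M → Fin 2 → V) (x : M) :
    n2 h κ (fun y => a y 0 • w y 1 - a y 1 • w y 0) x ≤ n1 h 0 a x * n1 h κ w x := by
  obtain ⟨B, hB, hdet⟩ := exists_coframe (hh.posDef x)
  have hd := dh_pos hh x
  rw [n1_coframe 0 a x hB, n1_coframe κ w x hB, n2]
  set a' : Fin 2 → ℂ := fun k => ∑ p, conj (B k p) • a x p with ha'
  set w' : Fin 2 → V := fun k => ∑ p, conj (B k p) • w x p with hw'
  have h1 : a' 0 • w' 1 - a' 1 • w' 0 = conj B.det • (a x 0 • w x 1 - a x 1 • w x 0) := by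
    simp only [ha', hw', Fin.sum_univ_two, Matrix.det_fin_two, smul_eq_mul, map_sub, map_mul]
    module
  have h2 := wedge_le a' w'
  rw [h1, norm_smul, RCLike.norm_conj] at h2
  have h3 : ‖B.det‖ = (dh h x) ^ (-(1:ℝ) / 2) := by
    have : ‖B.det‖ = Real.sqrt ((dh h x)⁻¹) := by
      rw [← Real.sqrt_sq (norm_nonneg B.det), hdet]; rfl
    rw [this, Real.sqrt_eq_rpow, ← Real.rpow_neg_one, ← Real.rpow_mul hd.le]
    norm_num
  rw [h3] at h2
  have h4 : dh h x ^ (-((κ : ℝ) + 1) / 2) = dh h x ^ (-(1:ℝ) / 2) * dh h x ^ (-(κ : ℝ) / 2) := by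
    rw [← Real.rpow_add hd]; ring_nf
  rw [h4]
  have h5 : (0:ℝ) ≤ dh h x ^ (-(κ : ℝ) / 2) := Real.rpow_nonneg hd.le _
  have h6 : dh h x ^ (-((0 : ℤ) : ℝ) / 2) = 1 := by norm_num
  rw [h6, mul_one]
  calc ‖a x 0 • w x 1 - a x 1 • w x 0‖ * (dh h x ^ (-(1:ℝ) / 2) * dh h x ^ (-(κ : ℝ) / 2))
      = (dh h x ^ (-(1:ℝ) / 2) * ‖a x 0 • w x 1 - a x 1 • w x 0‖) * dh h x ^ (-(κ : ℝ) / 2) := by
        ring
    _ ≤ (Real.sqrt (‖a' 0‖ ^ 2 + ‖a' 1‖ ^ 2) * Real.sqrt (‖w' 0‖ ^ 2 + ‖w' 1‖ ^ 2)) *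
        dh h x ^ (-(κ : ℝ) / 2) := mul_le_mul_of_nonneg_right h2 h5
    _ = _ := by ring

end pt

/-! ### norms in a chart, continuity -/

section chart

variable {M : Type} [TopologicalSpace M] [ChartedSpace C2 M]
variable {V : Type*} [NormedAddCommGroup V] [InnerProductSpace ℂ V]
variable {h : M → Matrix (Fin 2) (Fin 2) ℂ}

theorem loc11_source {e : Ch M} {x : M} (hx : x ∈ e.source) :
    loc11 e h (e x) = (jac e x)ᵀ * h x * (jac e x).map conj := by
  ext i j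
  simp only [loc11, e.left_inv hx, Matrix.of_apply, Fin.sum_univ_two, Matrix.mul_apply,
    Matrix.transpose_apply, Matrix.map_apply, smul_eq_mul]
  ring

theorem det_map_conj (J : Matrix (Fin 2) (Fin 2) ℂ) : (J.map conj).det = conj J.det := by
  simp [Matrix.det_fin_two]

theorem det_loc11 (hh : IsHerm h) {e : Ch M} {x : M} (hx : x ∈ e.source) :
    (loc11 e h (e x)).det = ((‖(jac e x).det‖ ^ 2 * dh h x : ℝ) : ℂ) := by
  rw [loc11_source hx, Matrix.det_mul, Matrix.det_mul, Matrix.det_transpose, det_map_conj]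
  have h5 : (h x).det = ((dh h x : ℝ) : ℂ) := by
    have := (Complex.pos_iff.1 (hh.posDef x).det_pos).2
    apply Complex.ext
    · simp [dh]
    · simpa using this.symm
  rw [h5, mul_right_comm, Complex.mul_conj, Complex.normSq_eq_norm_sq]
  push_cast
  ring

variable [IsManifold 𝓘(ℂ, C2) ω M]

theorem norm_jac_pos {e : Ch M} (he : e ∈ atlas C2 M) {x : M} (hx : x ∈ e.source) :
    0 < ‖(jac e x).det‖ := norm_pos_iff.2 (jac_det_ne_zero he hx)

theorem n0_chart (hh : IsHerm h) {e : Ch M} (he : e ∈ atlas C2 M) {x : M} (hx : x ∈ e.source)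
    (κ : ℤ) (s : M → V) :
    n0 h κ s x = ‖loc0 κ e s (e x)‖ * (loc11 e h (e x)).det.re ^ (-(κ : ℝ) / 2) := by
  have hJ := norm_jac_pos he hx
  have hd := dh_pos hh x
  rw [det_loc11 hh hx, Complex.ofReal_re, loc0_source hx, norm_smul, norm_zpow, n0,
    Real.mul_rpow (by positivity) hd.le, ← Real.rpow_natCast, ← Real.rpow_mul hJ.le,
    ← Real.rpow_intCast]
  have : ‖(jac e x).det‖ ^ (κ : ℝ) * ‖(jac e x).det‖ ^ (((2 : ℕ) : ℝ) * (-(κ : ℝ) / 2)) = 1 := by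
    rw [← Real.rpow_add hJ]
    have : (κ : ℝ) + ((2 : ℕ) : ℝ) * (-(κ : ℝ) / 2) = 0 := by push_cast; ring
    rw [this, Real.rpow_zero]
  calc ‖s x‖ * dh h x ^ (-(κ : ℝ) / 2)
      = (‖(jac e x).det‖ ^ (κ : ℝ) * ‖(jac e x).det‖ ^ (((2 : ℕ) : ℝ) * (-(κ : ℝ) / 2))) *
        (‖s x‖ * dh h x ^ (-(κ : ℝ) / 2)) := by rw [this, one_mul]
    _ = _ := by ring

theorem n2_chart (hh : IsHerm h) {e : Ch M} (he : e ∈ atlas C2 M) {x : M} (hx : x ∈ e.source)
    (κ : ℤ) (b : M → V) :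
    n2 h κ b x = ‖loc2 κ e b (e x)‖ * (loc11 e h (e x)).det.re ^ (-((κ : ℝ) + 1) / 2) := by
  have hJ := norm_jac_pos he hx
  have hd := dh_pos hh x
  rw [det_loc11 hh hx, Complex.ofReal_re, loc2_source hx, norm_smul, norm_smul, norm_zpow,
    RCLike.norm_conj, n2, Real.mul_rpow (by positivity) hd.le, ← Real.rpow_natCast,
    ← Real.rpow_mul hJ.le, ← Real.rpow_intCast]
  have : ‖(jac e x).det‖ ^ (κ : ℝ) * ‖(jac e x).det‖ *
      ‖(jac e x).det‖ ^ (((2 : ℕ) : ℝ) * (-((κ : ℝ) + 1) / 2)) = 1 := by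
    rw [← Real.rpow_add_one hJ.ne', ← Real.rpow_add hJ]
    have : (κ : ℝ) + 1 + ((2 : ℕ) : ℝ) * (-((κ : ℝ) + 1) / 2) = 0 := by push_cast; ring
    rw [this, Real.rpow_zero]
  calc ‖b x‖ * dh h x ^ (-((κ : ℝ) + 1) / 2)
      = (‖(jac e x).det‖ ^ (κ : ℝ) * ‖(jac e x).det‖ *
        ‖(jac e x).det‖ ^ (((2 : ℕ) : ℝ) * (-((κ : ℝ) + 1) / 2))) *
        (‖b x‖ * dh h x ^ (-((κ : ℝ) + 1) / 2)) := by rw [this, one_mul]
    _ = _ := by ring

theorem nsq1_chart (hh : IsHerm h) {e : Ch M} (he : e ∈ atlas C2 M) {x : M} (hx : x ∈ e.source)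
    (κ : ℤ) (a : M → Fin 2 → V) :
    (gsum (loc11 e h (e x))⁻¹ (loc1 κ e a (e x))).re =
      (‖(jac e x).det‖ ^ κ) ^ 2 * nsq1 h a x := by
  have hJ := jac_det_ne_zero he hx
  have h1 : loc1 κ e a (e x) = fun i => (jac e x).det ^ κ • ∑ p, (jac e x)ᴴ i p • a x p := by
    funext i
    rw [loc1_source hx]
    rfl
  rw [h1, gsum_smul, gsum_change, Complex.re_ofReal_mul, norm_zpow]
  congr 1
  rw [nsq1_eq]
  congr 2
  rw [loc11_source hx, Matrix.mul_inv_rev, Matrix.mul_inv_rev]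
  have h2 : ((jac e x)ᴴ)ᵀ = (jac e x).map conj := by
    ext i j; simp
  have h3 : ((jac e x)ᴴ).map conj = (jac e x)ᵀ := by
    ext i j; simp
  rw [h2, h3]
  have h4 : IsUnit ((jac e x).map conj).det := by
    rw [det_map_conj]
    exact (isUnit_iff_ne_zero.2 hJ).map (starRingEnd ℂ)
  have h5 : IsUnit ((jac e x)ᵀ).det := by
    rw [Matrix.det_transpose]
    exact isUnit_iff_ne_zero.2 hJ
  rw [← Matrix.mul_assoc ((jac e x).map conj), Matrix.mul_nonsing_inv _ h4, Matrix.one_mul,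
    Matrix.mul_assoc, Matrix.nonsing_inv_mul _ h5, Matrix.mul_one]

theorem n1_chart (hh : IsHerm h) {e : Ch M} (he : e ∈ atlas C2 M) {x : M} (hx : x ∈ e.source)
    (κ : ℤ) (a : M → Fin 2 → V) :
    n1 h κ a x = Real.sqrt (gsum (loc11 e h (e x))⁻¹ (loc1 κ e a (e x))).re *
      (loc11 e h (e x)).det.re ^ (-(κ : ℝ) / 2) := by
  have hJ := norm_jac_pos he hx
  have hd := dh_pos hh x
  rw [nsq1_chart hh he hx, det_loc11 hh hx, Complex.ofReal_re,
    Real.sqrt_mul (by positivity), Real.sqrt_sq (by positivity), n1,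
    Real.mul_rpow (by positivity) hd.le, ← Real.rpow_natCast _ 2, ← Real.rpow_mul hJ.le,
    ← Real.rpow_intCast]
  have : ‖(jac e x).det‖ ^ (κ : ℝ) * ‖(jac e x).det‖ ^ (((2 : ℕ) : ℝ) * (-(κ : ℝ) / 2)) = 1 := by
    rw [← Real.rpow_add hJ]
    have : (κ : ℝ) + ((2 : ℕ) : ℝ) * (-(κ : ℝ) / 2) = 0 := by push_cast; ring
    rw [this, Real.rpow_zero]
  calc Real.sqrt (nsq1 h a x) * dh h x ^ (-(κ : ℝ) / 2)
      = (‖(jac e x).det‖ ^ (κ : ℝ) * ‖(jac e x).det‖ ^ (((2 : ℕ) : ℝ) * (-(κ : ℝ) / 2))) *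
        (Real.sqrt (nsq1 h a x) * dh h x ^ (-(κ : ℝ) / 2)) := by rw [this, one_mul]
    _ = _ := by ring

theorem continuousAt_loc11 (hh : IsHerm h) {e : Ch M} (he : e ∈ atlas C2 M) {x : M}
    (hx : x ∈ e.source) (i j : Fin 2) : ContinuousAt (fun z => loc11 e h z i j) (e x) :=
  ((hh.smooth e he i j).contDiffAt (e.open_target.mem_nhds (e.map_source hx))).continuousAt

theorem continuousAt_det (hh : IsHerm h) {e : Ch M} (he : e ∈ atlas C2 M) {x : M}
    (hx : x ∈ e.source) (t : ℝ) :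
    ContinuousAt (fun z => (loc11 e h z).det.re ^ t) (e x) := by
  have h1 : ContinuousAt (fun z => (loc11 e h z).det) (e x) := by
    simp only [Matrix.det_fin_two]
    exact ((continuousAt_loc11 hh he hx 0 0).mul (continuousAt_loc11 hh he hx 1 1)).sub
      ((continuousAt_loc11 hh he hx 0 1).mul (continuousAt_loc11 hh he hx 1 0))
  have h2 : ContinuousAt (fun z => (loc11 e h z).det.re) (e x) :=
    Complex.continuous_re.continuousAt.comp h1
  apply h2.rpow_const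
  left
  rw [det_loc11 hh hx, Complex.ofReal_re]
  have hJ := norm_jac_pos he hx
  have hd := dh_pos hh x
  positivity

theorem continuousAt_gsum (hh : IsHerm h) {e : Ch M} (he : e ∈ atlas C2 M) {x : M}
    (hx : x ∈ e.source) {b : C2 → Fin 2 → V} (hb : ContinuousAt b (e x)) :
    ContinuousAt (fun z => (gsum (loc11 e h z)⁻¹ (b z)).re) (e x) := by
  have h1 : ContinuousAt (fun z => (loc11 e h z).det) (e x) := by
    simp only [Matrix.det_fin_two]
    exact ((continuousAt_loc11 hh he hx 0 0).mul (continuousAt_loc11 hh he hx 1 1)).sub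
      ((continuousAt_loc11 hh he hx 0 1).mul (continuousAt_loc11 hh he hx 1 0))
  have h0 : (loc11 e h (e x)).det ≠ 0 := by
    rw [det_loc11 hh hx]
    have hJ := norm_jac_pos he hx
    have hd := dh_pos hh x
    exact_mod_cast (by positivity : ‖(jac e x).det‖ ^ 2 * dh h x ≠ 0)
  have h2 := h1.inv₀ h0
  have hb' : ∀ i, ContinuousAt (fun z => b z i) (e x) := fun i => continuousAt_pi.1 hb i
  have e1 : ∀ z, gsum (loc11 e h z)⁻¹ (b z) = (loc11 e h z).det⁻¹ *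
      (loc11 e h z 1 1 * inner ℂ (b z 0) (b z 0) - loc11 e h z 1 0 * inner ℂ (b z 0) (b z 1) -
       loc11 e h z 0 1 * inner ℂ (b z 1) (b z 0) + loc11 e h z 0 0 * inner ℂ (b z 1) (b z 1)) := by
    intro z
    rw [Matrix.inv_def, Ring.inverse_eq_inv', Matrix.adjugate_fin_two]
    simp only [gsum, Fin.sum_univ_two, Matrix.smul_apply, Matrix.of_apply, Matrix.cons_val_zero,
      Matrix.cons_val_one, smul_eq_mul, Matrix.cons_val', Matrix.cons_val_fin_one]
    ring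
  have hc : ∀ i j, ContinuousAt (fun z => inner ℂ (b z i) (b z j)) (e x) := fun i j =>
    (hb' i).inner (𝕜 := ℂ) (hb' j)
  simp only [e1]
  refine Complex.continuous_re.continuousAt.comp (h2.mul ?_)
  exact ((((continuousAt_loc11 hh he hx 1 1).mul (hc 0 0)).sub
    ((continuousAt_loc11 hh he hx 1 0).mul (hc 0 1))).sub
    ((continuousAt_loc11 hh he hx 0 1).mul (hc 1 0))).add
    ((continuousAt_loc11 hh he hx 0 0).mul (hc 1 1))

theorem continuous_of_chart {n : M → ℝ} (F : Ch M → C2 → ℝ)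
    (h1 : ∀ e ∈ atlas C2 M, ∀ x ∈ e.source, n x = F e (e x))
    (h2 : ∀ e ∈ atlas C2 M, ∀ x ∈ e.source, ContinuousAt (F e) (e x)) : Continuous n := by
  rw [continuous_iff_continuousAt]
  intro x
  have hx := mem_chart_source C2 x
  have he := chart_mem_atlas C2 x
  have h3 : ContinuousAt (fun y => F (chartAt C2 x) (chartAt C2 x y)) x :=
    (h2 _ he x hx).comp ((chartAt C2 x).continuousAt hx)
  refine h3.congr ?_
  filter_upwards [(chartAt C2 x).open_source.mem_nhds hx] with y hy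
  exact (h1 _ he y hy).symm

theorem continuous_n0 (hh : IsHerm h) {n : WithTop ℕ∞} {κ : ℤ} {s : M → V} (hs : Reg0 n κ s) :
    Continuous (n0 h κ s) := by
  refine continuous_of_chart (fun e z => ‖loc0 κ e s z‖ * (loc11 e h z).det.re ^ (-(κ : ℝ) / 2))
    (fun e he x hx => n0_chart hh he hx κ s) fun e he x hx => ?_
  exact ((hs.contDiffAt he (e.map_source hx)).continuousAt.norm).mul (continuousAt_det hh he hx _)

theorem continuous_n2 (hh : IsHerm h) {n : WithTop ℕ∞} {κ : ℤ} {b : M → V} (hs : Reg2 n κ b) :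
    Continuous (n2 h κ b) := by
  refine continuous_of_chart
    (fun e z => ‖loc2 κ e b z‖ * (loc11 e h z).det.re ^ (-((κ : ℝ) + 1) / 2))
    (fun e he x hx => n2_chart hh he hx κ b) fun e he x hx => ?_
  exact ((hs.contDiffAt he (e.map_source hx)).continuousAt.norm).mul (continuousAt_det hh he hx _)

theorem continuous_n1 (hh : IsHerm h) {n : WithTop ℕ∞} {κ : ℤ} {a : M → Fin 2 → V}
    (hs : Reg1 n κ a) : Continuous (n1 h κ a) := by
  refine continuous_of_chart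
    (fun e z => Real.sqrt (gsum (loc11 e h z)⁻¹ (loc1 κ e a z)).re *
      (loc11 e h z).det.re ^ (-(κ : ℝ) / 2))
    (fun e he x hx => n1_chart hh he hx κ a) fun e he x hx => ?_
  exact ((continuousAt_gsum hh he hx (hs.contDiffAt he (e.map_source hx)).continuousAt).sqrt).mul
    (continuousAt_det hh he hx _)

end chart

end Vale.Agent.P267.XT
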