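import Vale.Agent.P267.H877.Iface
import Vale.Agent.P267.H877.Norms

/-!
# P267 / XT-AN: duals and trivial bundles in `EndTriv`, `PerSeq` (helper877)
-/

set_option linter.unusedVariables false
set_option linter.unusedSectionVars false

open scoped Manifold ContDiff ComplexConjugate Matrix ComplexOrder Topology
open MeasureTheory Set Filter

noncomputable section

namespace Vale.Agent.P267.XT

open FL

section neg

variable {X : Type*} [TopologicalSpace X] [ChartedSpace C2 X]
variable {V : Type*} [NormedAddCommGroup V] [NormedSpace ℂ V]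

theorem loc1_neg (κ : ℤ) (e : Ch X) (a : X → Fin 2 → V) (z : C2) (i : Fin 2) :
    loc1 κ e (fun x i => -a x i) z i = -loc1 κ e a z i := by
  simp only [loc1, smul_neg, Finset.sum_neg_distrib]

theorem dzb_neg (j : Fin 2) (f : C2 → V) (z : C2) : dzb j (fun w => -f w) z = -dzb j f z := by
  simp only [dzb, fderiv_fun_neg, neg_apply, smul_neg]
  rw [← neg_add, smul_neg]

theorem dz_neg (j : Fin 2) (f : C2 → V) (z : C2) : dz j (fun w => -f w) z = -dz j f z := by
  simp only [dz, fderiv_fun_neg, neg_apply, smul_neg, sub_neg_eq_add]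
  rw [← smul_neg]
  congr 1
  abel

theorem reg1_neg {n : WithTop ℕ∞} {κ : ℤ} {a : X → Fin 2 → V} (ha : Reg1 n κ a) :
    Reg1 n κ fun x i => -a x i := by
  intro e he
  exact (ha e he).neg.congr fun z _ => by
    funext i
    rw [loc1_neg]
    rfl

theorem dbar1_neg (κ : ℤ) (a : X → Fin 2 → V) (x : X) :
    dbar1 κ (fun x i => -a x i) x = -dbar1 κ a x := by
  have h : ∀ i, (fun z => loc1 κ (chartAt C2 x) (fun x i => -a x i) z i) =
      fun z => -loc1 κ (chartAt C2 x) a z i := fun i => by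
    funext z; exact loc1_neg κ _ a z i
  rw [dbar1, h, h, dzb_neg, dzb_neg, dbar1]
  abel

theorem del1_neg (a : X → Fin 2 → V) (x : X) :
    del1 (fun x i => -a x i) x = -del1 a x := by
  ext i j
  have h : (fun z => loc1 0 (chartAt C2 x) (fun x i => -a x i) z j) =
      fun z => -loc1 0 (chartAt C2 x) a z j := by
    funext z; exact loc1_neg 0 _ a z j
  rw [del1, Matrix.of_apply, h, dz_neg]
  rfl

theorem F02_dual {ι : Type} [Fintype ι] [DecidableEq ι] (L : LB X ι) (x : X) :
    L.dual.F02 x = -L.F02 x := by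
  set A : Fin 2 → Matrix ι ι ℂ := fun k =>
    Matrix.of fun i j => dbar0 0 (fun y => L.P y i j) x k with hA
  have h : L.dual.F02 x = ((L.P x)ᵀ * ((A 0)ᵀ * (A 1)ᵀ - (A 1)ᵀ * (A 0)ᵀ)).trace := rfl
  have h' : L.F02 x = (L.P x * (A 0 * A 1 - A 1 * A 0)).trace := rfl
  rw [h, h', ← Matrix.transpose_mul, ← Matrix.transpose_mul, ← Matrix.transpose_sub,
    ← Matrix.transpose_mul, Matrix.trace_transpose, Matrix.trace_mul_comm, ← Matrix.trace_neg,
    ← Matrix.mul_neg, neg_sub]

theorem isHol_dual {ι : Type} [Fintype ι] [DecidableEq ι] {L : LB X ι} {a : X → Fin 2 → ℂ}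
    (h : L.IsHol a) : L.dual.IsHol fun x i => -a x i where
  smooth := reg1_neg h.smooth
  integrable x := by
    rw [dbar1_neg, F02_dual, ← neg_add, h.integrable x, neg_zero]

theorem const_reg0 {n : WithTop ℕ∞} (c : V) : Reg0 n 0 fun _ : X => c := by
  intro e _
  have : loc0 0 e (fun _ : X => c) = fun _ => c := by
    funext z
    simp [loc0]
  rw [this]
  exact contDiffOn_const

theorem dbar0_const (c : V) (x : X) (i : Fin 2) : dbar0 0 (fun _ : X => c) x i = 0 := by
  have : loc0 0 (chartAt C2 x) (fun _ : X => c) = fun _ => c := by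
    funext z
    simp [loc0]
  rw [dbar0, this, dzb]
  simp

theorem reg1_zero' {n : WithTop ℕ∞} (κ : ℤ) : Reg1 n κ fun (_ : X) (_ : Fin 2) => (0 : V) := by
  intro e _
  have : loc1 κ e (fun (_ : X) (_ : Fin 2) => (0 : V)) = fun _ _ => 0 := by
    funext z i
    simp [loc1]
  rw [this]
  exact contDiffOn_const

theorem dbar1_zero (κ : ℤ) (x : X) : dbar1 κ (fun (_ : X) (_ : Fin 2) => (0 : V)) x = 0 := by
  have : loc1 κ (chartAt C2 x) (fun (_ : X) (_ : Fin 2) => (0 : V)) = fun _ _ => 0 := by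
    funext z i
    simp [loc1]
  rw [dbar1, this, dzb, dzb]
  simp

theorem del1_zero (x : X) : del1 (fun (_ : X) (_ : Fin 2) => (0 : V)) x = 0 := by
  have : loc1 0 (chartAt C2 x) (fun (_ : X) (_ : Fin 2) => (0 : V)) = fun _ _ => 0 := by
    funext z i
    simp [loc1]
  ext i j
  rw [del1, Matrix.of_apply, this, dz]
  simp

theorem F02_triv {ι : Type} [Fintype ι] [DecidableEq ι] (i₀ : ι) (x : X) :
    (LB.triv i₀ : LB X ι).F02 x = 0 := by
  have h : ∀ (i j : ι) (k : Fin 2), dbar0 0 (fun y => (LB.triv i₀ : LB X ι).P y i j) x k = 0 :=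
    fun i j k => dbar0_const _ x k
  have h0 : ∀ k : Fin 2, (Matrix.of fun i j => dbar0 0 (fun y => (LB.triv i₀ : LB X ι).P y i j) x k)
      = (0 : Matrix ι ι ℂ) := by
    intro k; ext i j; exact h i j k
  rw [LB.F02, h0, h0]
  simp

theorem isHol_triv {ι : Type} [Fintype ι] [DecidableEq ι] (i₀ : ι) :
    (LB.triv i₀ : LB X ι).IsHol fun _ _ => 0 where
  smooth := reg1_zero' 0
  integrable x := by rw [F02_triv, dbar1_zero, add_zero]

theorem dual_triv {ι : Type} [Fintype ι] [DecidableEq ι] (i₀ : ι) :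
    (LB.triv i₀ : LB X ι).dual = LB.triv i₀ := by
  have : (LB.triv i₀ : LB X ι).dual.P = (LB.triv i₀ : LB X ι).P := by
    funext x
    show (Matrix.single i₀ i₀ (1 : ℂ))ᵀ = _
    rw [Matrix.transpose_single]
    rfl
  revert this
  generalize (LB.triv i₀ : LB X ι).dual = L₁
  generalize (LB.triv i₀ : LB X ι) = L₂
  intro h
  cases L₁; cases L₂
  simp only at h
  subst h
  rfl

end neg

section norm

variable {M : Type} [TopologicalSpace M] [ChartedSpace C2 M]
variable {V : Type*} [NormedAddCommGroup V] [InnerProductSpace ℂ V]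

theorem nsq1_neg (h : M → Matrix (Fin 2) (Fin 2) ℂ) (a : M → Fin 2 → V) (x : M) :
    nsq1 h (fun x i => -a x i) x = nsq1 h a x := by
  simp only [nsq1, inner_neg_neg]

theorem n1_neg (h : M → Matrix (Fin 2) (Fin 2) ℂ) (κ : ℤ) (a : M → Fin 2 → V) (x : M) :
    n1 h κ (fun x i => -a x i) x = n1 h κ a x := by
  rw [n1, n1, nsq1_neg]

theorem n1_zero_form (h : M → Matrix (Fin 2) (Fin 2) ℂ) (κ : ℤ) (x : M) :
    n1 h κ (fun (_ : M) (_ : Fin 2) => (0 : V)) x = 0 := by
  simp [n1, nsq1]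

end norm

namespace XTData

variable {M : Type} [TopologicalSpace M] [ChartedSpace C2 M] {D : XTData M}
variable {ι : Type} [Fintype ι] [DecidableEq ι]

theorem EndTriv.dual {L : LB M ι} {i₀ : ι} {a : M → Fin 2 → ℂ} {R N : ℝ}
    (h : D.EndTriv L i₀ a R N) : D.EndTriv L.dual i₀ (fun x i => -a x i) R N where
  hol := isHol_dual h.hol
  ends x hx := by
    show (L.P x)ᵀ = _
    rw [h.ends x hx, Matrix.transpose_single]
  decay := by
    obtain ⟨C, hC⟩ := h.decay
    exact ⟨C, fun x => by rw [n1_neg]; exact hC x⟩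
  decay' := by
    obtain ⟨C, hC⟩ := h.decay'
    refine ⟨C, fun x => ?_⟩
    rw [trh, del1_neg, Matrix.mul_neg, Matrix.trace_neg, norm_neg]
    exact hC x

theorem PerSeq.dual {L : LB M ι} {i₀ : ι} {a : M → Fin 2 → ℂ} {N : ℝ} {m₀ : ℕ}
    {Lm : ℕ → LB M ι} {am : ℕ → M → Fin 2 → ℂ} (h : D.PerSeq L i₀ a N m₀ Lm am) :
    D.PerSeq L.dual i₀ (fun x i => -a x i) N m₀ (fun m => (Lm m).dual)
      (fun m x i => -am m x i) where
  two_le := h.two_le
  hol m hm := isHol_dual (h.hol m hm)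
  perP m hm x := by
    show ((Lm m).P x)ᵀ = (L.P (D.mv m x))ᵀ
    rw [h.perP m hm]
  pera m hm x := by
    funext i
    show -am m (D.sh m x) i = -am m x i
    rw [h.pera m hm]
  close := by
    obtain ⟨C, hC⟩ := h.close
    refine ⟨C, fun m hm x hx => ?_⟩
    have e : (fun y => (fun i => -am m y i) - fun i => -a y i) =
        fun y i => -((am m y - a y) i) := by
      funext y i
      simp only [Pi.sub_apply]
      ring
    have := hC m hm x hx
    rw [e, n1_neg]
    exact this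

theorem PerSeq.mono {L : LB M ι} {i₀ : ι} {a : M → Fin 2 → ℂ} {N : ℝ} {m₀ m₁ : ℕ}
    {Lm : ℕ → LB M ι} {am : ℕ → M → Fin 2 → ℂ} (h : D.PerSeq L i₀ a N m₀ Lm am) (hm : m₀ ≤ m₁) :
    D.PerSeq L i₀ a N m₁ Lm am where
  two_le := h.two_le.trans hm
  hol m hm' := h.hol m (hm.trans hm')
  perP m hm' := h.perP m (hm.trans hm')
  pera m hm' := h.pera m (hm.trans hm')
  close := by
    obtain ⟨C, hC⟩ := h.close
    exact ⟨C, fun m hm' => hC m (hm.trans hm')⟩

theorem endTriv_triv (D : XTData M) (i₀ : ι) (R N : ℝ) :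
    D.EndTriv (LB.triv i₀) i₀ (fun _ _ => 0) R N where
  hol := isHol_triv i₀
  ends x hx := rfl
  decay := ⟨0, fun x => by rw [n1_zero_form]; simp⟩
  decay' := ⟨0, fun x => by rw [trh, del1_zero]; simp⟩

theorem perSeq_triv (D : XTData M) (i₀ : ι) (N : ℝ) :
    D.PerSeq (LB.triv i₀) i₀ (fun _ _ => 0) N 2 (fun _ => LB.triv i₀) (fun _ _ _ => 0) where
  two_le := le_rfl
  hol m hm := isHol_triv i₀
  perP m hm x := rfl
  pera m hm x := rfl
  close := ⟨0, fun m hm x hx => by
    have e : (fun y : M => (fun _ : Fin 2 => (0 : ℂ)) - fun _ : Fin 2 => (0 : ℂ)) =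
        fun _ _ => 0 := by
      funext y i; simp
    rw [e, n1_zero_form]; simp⟩

end XTData

end Vale.Agent.P267.XT
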