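import Vale.Agent.P267.H877.Iface
import Vale.Agent.P267.H877.Norms
import Vale.Agent.P267.H692.Iface

/-!
# P267 / XT-AN: the final theorems of the leaves of block A as Props, and the derivation of
`XtCone` from them (helper877)

* `T0KLeaf` (359): degree 0, values in `K ⊗ L`, all weights with bounded logarithmic increments;
* `T0ELeaf` (359): degree 0, values in `L`, weight `e^{-d f}`;
* `T0OLeaf d'` (359): degree 0, functions, weight `e^{δ f}`, `0 < δ < d'`;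
* `T2Leaf` (306): degree 2; `T2sLeaf` (306, 869): scalar, with the `C¹` bound;
* `ExLeaf` (646): holomorphic structures on bundles which are trivial at the ends;
* `T1Leaf` (87): degree 1;
* `H1Leaf L i₀ R r` (353, 824): Riemann-Roch on `X_m`;
* `AinLeaf` (466): `a_in(α) = 0`;
* `FinLeaf` (706): `XtCone`.
-/

set_option linter.unusedVariables false
set_option linter.unusedSectionVars false

open scoped Manifold ContDiff ComplexConjugate Matrix ComplexOrder Topology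
open MeasureTheory Set Filter

noncomputable section

namespace Vale.Agent.P267.XT

open FL

namespace XTData

variable {M : Type} [TopologicalSpace M] [ChartedSpace C2 M] (D : XTData M)

/-- XA-T0 for `K ⊗ L` -/
def T0KLeaf : Prop :=
  ∀ (ι : Type) [Fintype ι] [DecidableEq ι] (L : LB M ι) (i₀ : ι) (a : M → Fin 2 → ℂ) (R N : ℝ)
    (m₀ : ℕ) (Lm : ℕ → LB M ι) (am : ℕ → M → Fin 2 → ℂ), 0 < N → D.EndTriv L i₀ a R N →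
    D.PerSeq L i₀ a N m₀ Lm am → ∀ Λ : ℝ, ∃ (m₁ : ℕ) (C : ℝ), 0 ≤ C ∧ ∀ w, IsWt Λ w →
      D.T0 1 L a w C ∧ D.T0c 1 L a w C ∧ ∀ m ≥ m₁, D.T0 1 (Lm m) (am m) w C ∧
        ∀ μ : ℂ, μ ≠ 0 → (∀ j : ℤ, w (j + m) = ‖μ‖ * w j) → D.T0m 1 (Lm m) (am m) m μ w C

/-- XA-T0 for `L`, weight `e^{-d f}` -/
def T0ELeaf : Prop :=
  ∀ (ι : Type) [Fintype ι] [DecidableEq ι] (L : LB M ι) (i₀ : ι) (a : M → Fin 2 → ℂ) (R N : ℝ)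
    (m₀ : ℕ) (Lm : ℕ → LB M ι) (am : ℕ → M → Fin 2 → ℂ), 0 < N → D.EndTriv L i₀ a R N →
    D.PerSeq L i₀ a N m₀ Lm am → ∀ d : ℝ, 0 < d → ∃ (m₁ : ℕ) (C : ℝ), 0 ≤ C ∧
      D.T0 0 L a (ew (-d)) C ∧ ∀ m ≥ m₁, D.T0 0 (Lm m) (am m) (ew (-d)) C

/-- XA-T0 for functions, weight `e^{δ f}` -/
def T0OLeaf (d' : ℝ) : Prop :=
  ∀ (ι : Type) [Fintype ι] [DecidableEq ι] (i₀ : ι) (δ : ℝ), 0 < δ → δ < d' →
    ∃ C : ℝ, 0 ≤ C ∧ D.T0 0 (LB.triv i₀ : LB M ι) 0 (ew δ) C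

/-- XA-T2 -/
def T2Leaf : Prop :=
  ∀ (ι : Type) [Fintype ι] [DecidableEq ι] (L : LB M ι) (i₀ : ι) (a : M → Fin 2 → ℂ) (R N : ℝ)
    (m₀ : ℕ) (Lm : ℕ → LB M ι) (am : ℕ → M → Fin 2 → ℂ), 0 < N → D.EndTriv L i₀ a R N →
    D.PerSeq L i₀ a N m₀ Lm am → ∀ Λ : ℝ, ∃ (m₁ : ℕ) (C : ℝ), 0 ≤ C ∧ ∀ w, IsWt Λ w →
      D.T2 L a w C ∧ ∀ m ≥ m₁, ∀ μ : ℂ, μ ≠ 0 → (∀ j : ℤ, w (j + m) = ‖μ‖ * w j) →
        D.T2m (Lm m) (am m) m μ w C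

/-- XA-T2, scalar version with the `C¹` bound -/
def T2sLeaf : Prop :=
  ∀ Λ : ℝ, ∃ (k₀ : ℕ) (C : ℝ), 0 ≤ C ∧ ∀ w, IsWt Λ w → D.T2s k₀ w C

/-- XA-EX -/
def ExLeaf : Prop :=
  ∀ (ι : Type) [Fintype ι] [DecidableEq ι] (L : LB M ι) (i₀ : ι) (R : ℝ),
    (∀ x, R ≤ |D.f x| → L.P x = Matrix.single i₀ i₀ 1) → ∀ N : ℝ, 0 < N →
    ∃ (a : M → Fin 2 → ℂ) (m₀ : ℕ) (Lm : ℕ → LB M ι) (am : ℕ → M → Fin 2 → ℂ),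
      D.EndTriv L i₀ a R N ∧ D.PerSeq L i₀ a N m₀ Lm am

/-- XA-T1 -/
def T1Leaf : Prop :=
  ∀ (ι : Type) [Fintype ι] [DecidableEq ι] (L : LB M ι) (i₀ : ι) (a : M → Fin 2 → ℂ) (R N : ℝ)
    (m₀ : ℕ) (Lm : ℕ → LB M ι) (am : ℕ → M → Fin 2 → ℂ) (δ : ℝ) (r : ℕ), 0 < N →
    D.EndTriv L i₀ a R N → D.PerSeq L i₀ a N m₀ Lm am →
    (∃ C, 0 ≤ C ∧ ∀ m ≥ m₀, D.T0 0 (Lm m) (am m) (ew δ) C) →
    (∃ C, 0 ≤ C ∧ ∀ m ≥ m₀, D.T2m (Lm m) (am m) m (Real.exp (δ * m) : ℂ) (ew δ) C) →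
    (∀ m ≥ m₀, D.H1m (Lm m) (am m) m (Real.exp (δ * m) : ℂ) r) → D.T1 L a δ r

/-- no equivariant holomorphic sections -/
def V0m {ι : Type} [Fintype ι] [DecidableEq ι] (κ : ℤ) (L : LB M ι) (a : M → Fin 2 → ℂ) (m : ℕ)
    (μ : ℂ) : Prop :=
  ∀ u : M → EuclideanSpace ℂ ι, Reg0 ∞ κ u → L.Sec u → (∀ x i, L.db0 a κ u x i = 0) →
    D.Equiv m μ u → u = 0

/-- XM-H1, XT-INPUTS: `dim H¹(X_m, (L_m, a_m) ⊗ L_μ) ≤ r` if `H⁰ = H² = 0` -/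
def H1Leaf {ι : Type} [Fintype ι] [DecidableEq ι] (L : LB M ι) (i₀ : ι) (R : ℝ) (r : ℕ) : Prop :=
  ∀ (a : M → Fin 2 → ℂ) (N : ℝ) (m₀ : ℕ) (Lm : ℕ → LB M ι) (am : ℕ → M → Fin 2 → ℂ), 0 < N →
    D.EndTriv L i₀ a R N → D.PerSeq L i₀ a N m₀ Lm am → ∃ m₁ : ℕ, ∀ m ≥ m₁, ∀ μ : ℂ, μ ≠ 0 →
      D.V0m 0 (Lm m) (am m) m μ → D.V0m 1 (Lm m).dual (fun x i => -am m x i) m μ⁻¹ →
      D.H1m (Lm m) (am m) m μ r

/-- AIN0 -/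
def AinLeaf {ι : Type} [Fintype ι] [DecidableEq ι] (L : LB M ι) (i₀ : ι) (a : M → Fin 2 → ℂ) :
    Prop :=
  ∀ (α : M → EuclideanSpace ℂ ι) (b : ℂ), Reg0 ∞ 0 α → L.Sec α → (∀ x i, L.db0 a 0 α x i = 0) →
    Tendsto (fun x => α x i₀) (comap D.f atTop) (𝓝 1) →
    Tendsto (fun x => α x i₀) (comap D.f atBot) (𝓝 b) → b = 0

/-- XA-FIN -/
def FinLeaf : Prop :=
  ∀ (ι : Type) [Fintype ι] [DecidableEq ι] (L : LB M ι) (i₀ : ι) (a : M → Fin 2 → ℂ) (R N : ℝ)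
    (d d' : ℝ), 0 < d → d < d' → d + d' ≤ N → D.EndTriv L i₀ a R N → D.RootGap d' →
    D.T1 L a (-d) 0 → D.T1 L.dual (fun x i => -a x i) (-d) 1 →
    D.T1 (LB.triv i₀ : LB M ι) 0 (-d) 0 →
    (∀ δ : ℝ, 0 < δ → δ ≤ d' → D.T1 (LB.triv i₀ : LB M ι) 0 δ 0) →
    (∃ C, 0 ≤ C ∧ D.T2 L.dual (fun x i => -a x i) (ew (-d)) C) → D.AinLeaf L i₀ a →
    ∃ (α : M → EuclideanSpace ℂ ι) (R' : ℝ), H692.XtCone D L a i₀ R' α d d'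

end XTData

end Vale.Agent.P267.XT
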