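import Vale.Agent.P267.H877.Leaves
import Vale.Agent.P267.H877.Dual

/-!
# P267 / XT-AN: `XtCone` from the leaves (helper877)
-/

set_option linter.unusedVariables false
set_option linter.unusedSectionVars false

open scoped Manifold ContDiff ComplexConjugate Matrix ComplexOrder Topology
open MeasureTheory Set Filter

noncomputable section

namespace Vale.Agent.P267.XT

open FL

namespace XTData

section equiv

variable {M : Type} [TopologicalSpace M] [ChartedSpace C2 M] {D : XTData M}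

theorem Equiv.sh_mul {V : Type*} [AddCommGroup V] [Module ℂ V] {m : ℤ} {μ : ℂ} (hμ : μ ≠ 0)
    {u : M → V} (hu : D.Equiv m μ u) (q : ℤ) (x : M) : u (D.sh (m * q) x) = μ ^ q • u x := by
  revert q
  apply sh_induction
  · simp
  · intro q hq
    rw [mul_add, mul_one, add_comm, D.sh_add, hu, hq, smul_smul, zpow_add_one₀ hμ, mul_comm]
  · intro q hq
    have h := hu (D.sh (m * (q - 1)) x)
    rw [← D.sh_add, show m + m * (q - 1) = m * q by ring, hq] at h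
    rw [zpow_sub_one₀ hμ, mul_comm (μ ^ q), mul_smul, h, smul_smul, inv_mul_cancel₀ hμ, one_smul]

theorem prof_const_mul {n : M → ℝ} {c : ℝ} (hc : 0 ≤ c) (j : ℤ) :
    D.prof (fun x => c * n x) j = c * D.prof n j := by
  rw [prof, prof, ← smul_eq_mul, ← Real.sSup_smul_of_nonneg hc]
  congr 1
  ext y
  simp only [Set.mem_image, Set.mem_smul_set, smul_eq_mul]
  constructor
  · rintro ⟨x, hx, rfl⟩
    exact ⟨n x, ⟨x, hx, rfl⟩, rfl⟩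
  · rintro ⟨_, ⟨x, hx, rfl⟩, rfl⟩
    exact ⟨x, hx, rfl⟩

variable {V : Type*} [NormedAddCommGroup V] [InnerProductSpace ℂ V]

theorem Equiv.p0_add {m : ℤ} {μ : ℂ} (hμ : μ ≠ 0) {κ : ℤ} {u : M → V} (hu : D.Equiv m μ u)
    (q j : ℤ) : D.p0 κ u (j + m * q) = ‖μ‖ ^ q * D.p0 κ u j := by
  have e : D.p0 κ u (j + m * q) = D.prof (fun x => ‖μ‖ ^ q * n0 D.h κ u x) j := by
    rw [p0, ← D.prof_comp_sh]
    congr 1
    funext x
    rw [← D.n0_comp_sh, n0, n0, Equiv.sh_mul hμ hu, norm_smul, norm_zpow, mul_assoc]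
  rw [e, prof_const_mul (by positivity), p0]

/-- an equivariant section has exactly exponential growth -/
theorem Equiv.exists_bound {m : ℕ} (hm : 0 < m) {μ : ℂ} (hμ : μ ≠ 0) {δ : ℝ}
    (hδ : ‖μ‖ = Real.exp (δ * m)) {κ : ℤ} {u : M → V} (hu : D.Equiv m μ u) (hh : IsHerm D.h) :
    ∃ A, ∀ j, D.p0 κ u j ≤ A * ew δ j := by
  have hp : ∀ j, 0 ≤ D.p0 κ u j := fun j => D.prof_nonneg (n0_nonneg hh κ u) j
  refine ⟨∑ r ∈ Finset.range m, D.p0 κ u r / ew δ r, fun j => ?_⟩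
  have hm' : (m : ℤ) ≠ 0 := by exact_mod_cast hm.ne'
  obtain ⟨r, hr⟩ := Int.eq_ofNat_of_zero_le (Int.emod_nonneg j hm')
  have hrm : r < m := by
    have := Int.emod_lt_of_pos j (by exact_mod_cast hm : (0 : ℤ) < m)
    rw [hr] at this
    exact_mod_cast this
  have hj : j = (r : ℤ) + m * (j / m) := by
    rw [← hr]; exact (Int.emod_add_mul_ediv j m).symm
  have e1 : ew δ j = ‖μ‖ ^ (j / m) * ew δ r := by
    rw [hδ, ← Real.rpow_intCast, ← Real.exp_mul, ew, ew, ← Real.exp_add]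
    congr 1
    have : (j : ℝ) = (r : ℝ) + m * ((j / m : ℤ) : ℝ) := by exact_mod_cast congrArg (Int.cast : ℤ → ℝ) hj
    rw [this]; push_cast; ring
  rw [e1]
  conv_lhs => rw [hj]
  rw [Equiv.p0_add hμ hu]
  have hw : (0:ℝ) < ew δ (r : ℤ) := Real.exp_pos _
  have h1 : D.p0 κ u r / ew δ r ≤ ∑ r ∈ Finset.range m, D.p0 κ u r / ew δ r :=
    Finset.single_le_sum (f := fun r : ℕ => D.p0 κ u (r : ℤ) / ew δ (r : ℤ))
      (fun i _ => div_nonneg (hp i) (Real.exp_pos _).le) (Finset.mem_range.2 hrm)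
  have h2 : D.p0 κ u r ≤ (∑ r ∈ Finset.range m, D.p0 κ u r / ew δ r) * ew δ r := by
    rwa [div_le_iff₀ hw] at h1
  have h3 : (0 : ℝ) ≤ ‖μ‖ ^ (j / m) := by positivity
  calc ‖μ‖ ^ (j / m) * D.p0 κ u r ≤ ‖μ‖ ^ (j / m) *
      ((∑ r ∈ Finset.range m, D.p0 κ u r / ew δ r) * ew δ r) := mul_le_mul_of_nonneg_left h2 h3
    _ = _ := by ring

end equiv

section core

variable {M : Type} [TopologicalSpace M] [ChartedSpace C2 M] [IsManifold 𝓘(ℂ, C2) ω M]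
  {D : XTData M}
variable {ι : Type} [Fintype ι] [DecidableEq ι]

theorem eq_zero_of_p0 {V : Type*} [NormedAddCommGroup V] [InnerProductSpace ℂ V] {κ : ℤ}
    {u : M → V} (hu : Reg0 ∞ κ u) (h : ∀ j, D.p0 κ u j ≤ 0) : u = 0 := by
  funext x
  have h1 := D.le_prof (continuous_n0 D.herm hu) (D.mem_slab_floor x)
  have h2 : n0 D.h κ u x ≤ 0 := h1.trans (h _)
  have h3 : (0 : ℝ) < dh D.h x ^ (-(κ : ℝ) / 2) := Real.rpow_pos_of_pos (dh_pos D.herm x) _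
  rw [n0] at h2
  have h4 : ‖u x‖ ≤ 0 := by
    by_contra hc
    push Not at hc
    nlinarith [mul_pos hc h3]
  exact norm_le_zero_iff.1 h4

/-- the estimate T0 gives vanishing on `X_m` -/
theorem T0.v0m {κ : ℤ} {L : LB M ι} {a : M → Fin 2 → ℂ} {m : ℕ} (hm : 0 < m) {μ : ℂ} (hμ : μ ≠ 0)
    {δ : ℝ} (hδ : ‖μ‖ = Real.exp (δ * m)) {C : ℝ} (hT : D.T0 κ L a (ew δ) C) :
    D.V0m κ L a m μ := by
  intro u hu hs hd he
  apply eq_zero_of_p0 (κ := κ) hu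
  intro j
  have h0 : ∀ j, D.p1 κ (L.db0 a κ u) j ≤ 0 * ew δ j := by
    intro j
    have : n1 D.h κ (L.db0 a κ u) = fun _ => 0 := by
      funext x
      have h1 : L.db0 a κ u = fun _ _ => 0 := by
        funext x i; exact hd x i
      rw [h1, n1_zero_form]
    rw [p1, this, zero_mul]
    exact D.prof_le le_rfl fun x _ => le_rfl
  have := hT u hu hs (Equiv.exists_bound hm hμ hδ he D.herm) 0 h0 j
  simpa using this

theorem norm_ofReal_exp (t : ℝ) : ‖((Real.exp t : ℝ) : ℂ)‖ = Real.exp t := by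
  rw [Complex.norm_real, Real.norm_of_nonneg (Real.exp_pos _).le]

theorem ew_add_mul (δ : ℝ) (m : ℕ) (j : ℤ) :
    ew δ (j + m) = ‖((Real.exp (δ * m) : ℝ) : ℂ)‖ * ew δ j := by
  rw [norm_ofReal_exp, ew, ew, ← Real.exp_add]
  congr 1
  push_cast
  ring

/-- T1 from T0, T2 and Riemann-Roch -/
theorem t1_gen (hT0K : D.T0KLeaf) (hT2 : D.T2Leaf) (hT1 : D.T1Leaf) {L : LB M ι} {i₀ : ι}
    {a : M → Fin 2 → ℂ} {R N : ℝ} {m₀ : ℕ} {Lm : ℕ → LB M ι} {am : ℕ → M → Fin 2 → ℂ}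
    (hN : 0 < N) (hE : D.EndTriv L i₀ a R N) (hP : D.PerSeq L i₀ a N m₀ Lm am) (δ : ℝ) (r : ℕ)
    (hT0 : ∃ (m₁ : ℕ) (C : ℝ), 0 ≤ C ∧ ∀ m ≥ m₁, D.T0 0 (Lm m) (am m) (ew δ) C)
    (hH1 : D.H1Leaf L i₀ R r) : D.T1 L a δ r := by
  obtain ⟨m₁, C₁, hC₁, hT0⟩ := hT0
  obtain ⟨m₂, C₂, hC₂, hT2'⟩ := hT2 ι L i₀ a R N m₀ Lm am hN hE hP |δ|
  obtain ⟨m₃, hH1'⟩ := hH1 a N m₀ Lm am hN hE hP
  obtain ⟨m₄, C₄, hC₄, hK⟩ := hT0K ι L.dual i₀ _ R N m₀ _ _ hN hE.dual hP.dual |-δ|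
  set m' := m₀ + m₁ + m₂ + m₃ + m₄ with hm'
  have hP' : D.PerSeq L i₀ a N m' Lm am := hP.mono (by omega)
  refine hT1 ι L i₀ a R N m' Lm am δ r hN hE hP' ⟨C₁, hC₁, fun m hm => hT0 m (by omega)⟩
    ⟨C₂, hC₂, fun m hm => ?_⟩ fun m hm => ?_
  · refine (hT2' (ew δ) (isWt_ew δ)).2 m (by omega) _ ?_ (ew_add_mul δ m)
    exact_mod_cast (Real.exp_pos _).ne'
  · have hm0 : 0 < m := by have := hP.two_le; omega
    have hμ : ((Real.exp (δ * m) : ℝ) : ℂ) ≠ 0 := by exact_mod_cast (Real.exp_pos _).ne'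
    refine hH1' m (by omega) _ hμ ?_ ?_
    · exact (hT0 m (by omega)).v0m hm0 hμ (norm_ofReal_exp _)
    · refine T0.v0m hm0 (inv_ne_zero hμ) (δ := -δ) ?_
        ((hK (ew (-δ)) (isWt_ew (-δ))).2.2 m (by omega)).1
      rw [norm_inv, norm_ofReal_exp, ← Real.exp_neg, neg_mul]

/-- **`XtCone` from the leaves of block A.** -/
theorem exists_xtCone {d₀ : ℝ} (hroot : ∀ t, 0 < t → t ≤ d₀ → D.RootGap t) (hd₀ : 0 < d₀)
    (hT0K : D.T0KLeaf) (hT0E : D.T0ELeaf) (hT0O : D.T0OLeaf d₀) (hT2 : D.T2Leaf) (hEx : D.ExLeaf)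
    (hT1 : D.T1Leaf) (hFin : D.FinLeaf) (L : LB M ι) (i₀ : ι) (R : ℝ)
    (hR : ∀ x, R ≤ |D.f x| → L.P x = Matrix.single i₀ i₀ 1) (hH1 : D.H1Leaf L i₀ R 0)
    (hH1' : D.H1Leaf L.dual i₀ R 1) (hH1O : D.H1Leaf (LB.triv i₀ : LB M ι) i₀ R 0)
    (hAin : ∀ (a : M → Fin 2 → ℂ) (N : ℝ), 0 < N → D.EndTriv L i₀ a R N → D.AinLeaf L i₀ a) :
    ∃ (a : M → Fin 2 → ℂ) (α : M → EuclideanSpace ℂ ι) (R' d d' : ℝ),
      H692.XtCone D L a i₀ R' α d d' := by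
  obtain ⟨a, m₀, Lm, am, hE, hP⟩ := hEx ι L i₀ R hR d₀ hd₀
  have hd : 0 < d₀ / 4 := by linarith
  have hP' := D.perSeq_triv i₀ d₀
  have hE' := D.endTriv_triv i₀ R d₀
  have h1 : D.T1 L a (-(d₀ / 4)) 0 := by
    refine t1_gen hT0K hT2 hT1 hd₀ hE hP _ 0 ?_ hH1
    obtain ⟨m₁, C, hC, -, h⟩ := hT0E ι L i₀ a R d₀ m₀ Lm am hd₀ hE hP _ hd
    exact ⟨m₁, C, hC, h⟩
  have h2 : D.T1 L.dual (fun x i => -a x i) (-(d₀ / 4)) 1 := by
    refine t1_gen hT0K hT2 hT1 hd₀ hE.dual hP.dual _ 1 ?_ hH1'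
    obtain ⟨m₁, C, hC, -, h⟩ := hT0E ι L.dual i₀ _ R d₀ m₀ _ _ hd₀ hE.dual hP.dual _ hd
    exact ⟨m₁, C, hC, h⟩
  have h3 : D.T1 (LB.triv i₀ : LB M ι) 0 (-(d₀ / 4)) 0 := by
    refine t1_gen hT0K hT2 hT1 hd₀ hE' hP' _ 0 ?_ hH1O
    obtain ⟨m₁, C, hC, -, h⟩ := hT0E ι (LB.triv i₀) i₀ _ R d₀ 2 _ _ hd₀ hE' hP' _ hd
    exact ⟨m₁, C, hC, h⟩
  have h4 : ∀ δ : ℝ, 0 < δ → δ ≤ d₀ / 2 → D.T1 (LB.triv i₀ : LB M ι) 0 δ 0 := by
    intro δ hδ hδ'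
    refine t1_gen hT0K hT2 hT1 hd₀ hE' hP' _ 0 ?_ hH1O
    obtain ⟨C, hC, h⟩ := hT0O ι i₀ δ hδ (by linarith)
    exact ⟨0, C, hC, fun m _ => h⟩
  have h5 : ∃ C, 0 ≤ C ∧ D.T2 L.dual (fun x i => -a x i) (ew (-(d₀ / 4))) C := by
    obtain ⟨m₁, C, hC, h⟩ := hT2 ι L.dual i₀ _ R d₀ m₀ _ _ hd₀ hE.dual hP.dual |-(d₀ / 4)|
    exact ⟨C, hC, (h _ (isWt_ew _)).1⟩
  obtain ⟨α, R', h⟩ := hFin ι L i₀ a R d₀ (d₀ / 4) (d₀ / 2) hd (by linarith) (by linarith) hE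
    (hroot _ (by linarith) (by linarith)) h1 h2 h3 h4 h5 (hAin a d₀ hd₀ hE)
  exact ⟨a, α, R', d₀ / 4, d₀ / 2, h⟩

end core

end XTData

end Vale.Agent.P267.XT
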